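import Crest.Agent.R258.Sec

/-! # Row 258: `gg t` is ample -/

set_option autoImplicit false
noncomputable section
open Crest.AlgGeometry.QuadricBundle Matrix MvPolynomial

namespace Crest.Agent.R258

variable {t : ℂ}

/-- the coordinate `z_j` restricted to the plane -/
def ZZ (t : ℂ) (j : Fin 3) : Fam := linF fun α p => Bm t α p j

/-- the homogeneous coordinate `w_k` -/
def WW (k : Fin 2) : Fam := fun α p => C (hc α.2 (p 1) k)

theorem gg_mulVec (t : ℂ) (α β : Chart) (p : Fin 2 → ℂ) (v : Fin 2 → ℂ) (i : Fin 2) :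
    (gg t α β p *ᵥ v) i = lineTrans 3 (-1) α β p *
      (v ⬝ᵥ (Cm t β (tau α β p) *ᵥ (Bm t α p *ᵥ Pi.single i 1))) := by
  rw [gg, smul_mulVec, mulVec_mulVec, Pi.smul_apply, smul_eq_mul, mulVec_single_one]
  simp [mulVec, dotProduct, mul_comm]

theorem ZZ_sec (ht : 1 - t ^ 2 ≠ 0) (j : Fin 3) : Sec (gg t) 1 (-3) 1 (ZZ t j) := by
  refine Sec.lin _ (fun α i => Bm_differentiable t α j i) fun α β p hp => ?_
  ext i
  have h1 := lineTrans_add (-3) 1 3 (-1) hp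
  norm_num [lineTrans_zero] at h1
  have h2 := congrFun (Bm_Cm ht (onP_tau hp (onP_Bm ht α p (Pi.single i 1)))) j
  rw [Pi.smul_apply, gg_mulVec, smul_eq_mul, ← mul_assoc, ← h1, one_mul]
  rw [mulVec] at h2
  rw [h2]
  simp

theorem hc_tau' {α β : Chart} {p : Fin 2 → ℂ} (hp : p ∈ overlap α β) :
    hc α.1 (p 0) = lineTrans 4 0 α β p • hc β.1 (tau α β p 0) ∧
      hc α.2 (p 1) = lineTrans 0 4 α β p • hc β.2 (tau α β p 1) := by
  rw [hc_tau α.1 β.1 _ hp.1, hc_tau α.2 β.2 _ hp.2, tau_zero, tau_one]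
  simp [lineTrans, zpow_ofNat]

theorem WW_sec (g : Transition 2) (k : Fin 2) : Sec g 0 0 4 (WW k) := by
  refine Sec.scalar _ (fun α => ?_) fun α β p hp => ?_
  · rcases fin2 α.2 with h | h <;> fin_cases k <;> simp [h, hc] <;> fun_prop
  · rw [(hc_tau' hp).2]; simp

theorem X1_sec (ht : 1 - t ^ 2 ≠ 0) : Sec (gg t) 1 (-7) 13 fun _ _ => X 1 := by
  have : (fun _ _ => X 1 : Fam) = linF fun _ _ => ![0, 1] := by
    ext1 α; ext1 p; simp [linF]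
  rw [this]
  refine Sec.lin _ (fun α i => differentiable_const _) fun α β p hp => ?_
  ext i
  have h0 := l0_Bm ht α p (Pi.single i 1)
  have h1 := l1_Bm ht α p (Pi.single i 1)
  rw [(hc_tau' hp).1, (hc_tau' hp).2] at h0 h1
  rw [l0_smul] at h0
  rw [l1_smul] at h1
  simp only [smul_dotProduct, Pi.smul_apply, smul_eq_mul] at h0 h1
  have e1 := lineTrans_add (-7) 13 3 (-1) hp
  have e2 := lineTrans_add (-4) 12 4 0 hp
  have e3 := lineTrans_add 0 4 0 4 hp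
  have e4 := lineTrans_add 0 8 0 4 hp
  have e5 := lineTrans_add 0 12 (-4) 0 hp
  have e6 := lineTrans_add (-4) 0 4 0 hp
  norm_num [lineTrans_zero] at e1 e2 e3 e4 e5 e6
  have e7 : lineTrans (-4) 12 α β p = lineTrans 0 4 α β p ^ 3 * lineTrans (-4) 0 α β p := by
    rw [e5, e4, e3]; ring
  have e8 : (![0, 1] : Fin 2 → ℂ) i = (Pi.single i 1 : Fin 2 → ℂ) 1 := by
    fin_cases i <;> simp
  rw [Pi.smul_apply, gg_mulVec, smul_eq_mul, ← mul_assoc, ← e1, Cm_mulVec, e7, e8]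
  simp only [dotProduct, Fin.sum_univ_two, cons_val_zero, cons_val_one, zero_mul, one_mul,
    zero_add]
  simp only [dotProduct] at h0 h1
  rcases fin2 β.1 with h | h
  · simp only [lam, h, if_true, hc_zero, cons_val_zero] at h1 ⊢
    linear_combination (-lineTrans (-4) 0 α β p) * h1 + (Pi.single i 1 : Fin 2 → ℂ) 1 * e6
  · have h' : ¬ β.1 = 0 := by omega
    simp only [lam, h', if_false, Pi.neg_apply, neg_mul, Finset.sum_neg_distrib] at h0 ⊢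
    simp only [h, hc_one, cons_val_one, cons_val_zero] at h0
    linear_combination (lineTrans (-4) 0 α β p) * h0 + (Pi.single i 1 : Fin 2 → ℂ) 1 * e6

theorem comb_ZZ (t : ℂ) (a : Fin 3 → ℂ) (α : Chart) (p : Fin 2 → ℂ) :
    C (a 0) * ZZ t 0 α p + C (a 1) * ZZ t 1 α p + C (a 2) * ZZ t 2 α p =
      C (a ⬝ᵥ (Bm t α p *ᵥ Pi.single 0 1)) * X 0 + C (a ⬝ᵥ (Bm t α p *ᵥ Pi.single 1 1)) * X 1 := by
  simp [ZZ, linF, dotProduct, Fin.sum_univ_three]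
  ring

/-- bihomogeneous polynomials in `(z, w)` -/
def SS (t : ℂ) (n c : ℕ) : Submodule ℂ Fam where
  carrier := {Q | Sec (gg t) n (-3 * n) (n + 4 * c) Q}
  zero_mem' := Sec.zero _ _ _
  add_mem' := Sec.add
  smul_mem' := fun c _ h => Sec.smul c h

theorem SS.mul {n c n' c' : ℕ} {a b : Fam} (ha : a ∈ SS t n c) (hb : b ∈ SS t n' c') :
    a * b ∈ SS t (n + n') (c + c') := by
  have := Sec.mul ha hb
  change Sec _ _ _ _ _
  convert this using 1 <;> push_cast <;> ring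

theorem WW_mem (t : ℂ) (k : Fin 2) : WW k ∈ SS t 0 1 := by
  change Sec _ _ _ _ _
  simpa using WW_sec (gg t) k

theorem ZZ_mem (ht : 1 - t ^ 2 ≠ 0) (j : Fin 3) : ZZ t j ∈ SS t 1 0 := by
  change Sec _ _ _ _ _
  simpa using ZZ_sec ht j

theorem WW_unit (α : Chart) (p : Fin 2 → ℂ) : WW 0 α p = 1 ∨ WW 1 α p = 1 := by
  rcases fin2 α.2 with h | h <;> simp [WW, h, hc]

theorem val_of_div (ht : 1 - t ^ 2 ≠ 0) {G : Fam} (hG : G ∈ SS t 3 2)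
    (hd : ∀ α p, X 1 ∣ G α p) {α : Chart} {p : Fin 2 → ℂ} {R : R2} (hR : G α p = X 1 * R) :
    R ∈ Val (gg t) 2 (-2) (-2) α p := by
  have hG' : Sec (gg t) (2 + 1) (-2 + -7) (-2 + 13) G := by
    have : Sec (gg t) _ _ _ G := hG
    simpa using this
  obtain ⟨σ, hσ, hσ'⟩ := Sec.div hG' (X1_sec ht) hd
  refine ⟨σ, hσ, ?_⟩
  rw [hσ'] at hR
  exact mul_left_cancel₀ (X_ne_zero 1) hR

/-- the Bezoutian sections -/
theorem bezout (ht : 1 - t ^ 2 ≠ 0) {q0 q1 q2 F0 F1 F2 F3 : Fam}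
    (hq0 : q0 ∈ SS t 2 0) (hq1 : q1 ∈ SS t 2 0) (hq2 : q2 ∈ SS t 2 0)
    (hF0 : F0 ∈ SS t 1 0) (hF1 : F1 ∈ SS t 1 0) (hF2 : F2 ∈ SS t 1 0) (hF3 : F3 ∈ SS t 1 0)
    (hq : ∀ α p, X 1 ∣ (q0 * WW 0 ^ 2 + q1 * WW 0 * WW 1 + q2 * WW 1 ^ 2) α p)
    (hf : ∀ α p, X 1 ∣
      (F0 * WW 0 ^ 3 + F1 * WW 0 ^ 2 * WW 1 + F2 * WW 0 * WW 1 ^ 2 + F3 * WW 1 ^ 3) α p)
    {α : Chart} {p : Fin 2 → ℂ}
    (hfp : (F0 * WW 0 ^ 3 + F1 * WW 0 ^ 2 * WW 1 + F2 * WW 0 * WW 1 ^ 2 + F3 * WW 1 ^ 3) α p =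
      X 1) :
    q0 α p ∈ Val (gg t) 2 (-2) (-2) α p ∧ q1 α p ∈ Val (gg t) 2 (-2) (-2) α p ∧
      q2 α p ∈ Val (gg t) 2 (-2) (-2) α p := by
  set q := q0 * WW 0 ^ 2 + q1 * WW 0 * WW 1 + q2 * WW 1 ^ 2 with hqdef
  set f := F0 * WW 0 ^ 3 + F1 * WW 0 ^ 2 * WW 1 + F2 * WW 0 * WW 1 ^ 2 + F3 * WW 1 ^ 3 with hfdef
  have w00 : WW 0 * WW 0 ∈ SS t 0 2 := SS.mul (WW_mem t 0) (WW_mem t 0)
  have w01 : WW 0 * WW 1 ∈ SS t 0 2 := SS.mul (WW_mem t 0) (WW_mem t 1)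
  have w11 : WW 1 * WW 1 ∈ SS t 0 2 := SS.mul (WW_mem t 1) (WW_mem t 1)
  have m3 : ∀ {a b c : Fam}, a ∈ SS t 2 0 → b ∈ SS t 1 0 → c ∈ SS t 0 2 → a * b * c ∈ SS t 3 2 :=
    fun ha hb hc => SS.mul (SS.mul ha hb) hc
  have hqF : ∀ F ∈ SS t 1 0, F * q ∈ SS t 3 2 := fun F hF => by
    have := add_mem (add_mem (m3 hq0 hF w00) (m3 hq1 hF w01)) (m3 hq2 hF w11)
    convert this using 1; rw [hqdef]; ring
  set r0 : Fam := q0 * F1 * (WW 0 * WW 0) + q0 * F2 * (WW 0 * WW 1) + q0 * F3 * (WW 1 * WW 1) -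
    q1 * F0 * (WW 0 * WW 0) - q2 * F0 * (WW 0 * WW 1) with hr0
  set r1 : Fam := q0 * F2 * (WW 0 * WW 0) - q2 * F0 * (WW 0 * WW 0) + q1 * F2 * (WW 0 * WW 1) -
    q2 * F1 * (WW 0 * WW 1) + q0 * F3 * (WW 0 * WW 1) + q1 * F3 * (WW 1 * WW 1) with hr1
  have r0m : r0 ∈ SS t 3 2 :=
    sub_mem (sub_mem (add_mem (add_mem (m3 hq0 hF1 w00) (m3 hq0 hF2 w01)) (m3 hq0 hF3 w11))
      (m3 hq1 hF0 w00)) (m3 hq2 hF0 w01)
  have r1m : r1 ∈ SS t 3 2 :=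
    add_mem (add_mem (sub_mem (add_mem (sub_mem (m3 hq0 hF2 w00) (m3 hq2 hF0 w00))
      (m3 hq1 hF2 w01)) (m3 hq2 hF1 w01)) (m3 hq0 hF3 w01)) (m3 hq1 hF3 w11)
  have i0 : ∀ β y, q0 β y * f β y = WW 1 β y * r0 β y + WW 0 β y * (F0 β y * q β y) := by
    intro β y
    simp only [hr0, hfdef, hqdef, Pi.add_apply, Pi.sub_apply, Pi.mul_apply, Pi.pow_apply]; ring
  have i1 : ∀ β y, q1 β y * f β y =
      WW 1 β y * r1 β y - WW 0 β y * r0 β y + WW 0 β y * (F1 β y * q β y) := by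
    intro β y
    simp only [hr0, hr1, hfdef, hqdef, Pi.add_apply, Pi.sub_apply, Pi.mul_apply, Pi.pow_apply]
    ring
  have i2 : ∀ β y, q2 β y * f β y =
      WW 1 β y * (F3 β y * q β y) - WW 0 β y * r1 β y + WW 0 β y * (F2 β y * q β y) := by
    intro β y
    simp only [hr1, hfdef, hqdef, Pi.add_apply, Pi.sub_apply, Pi.mul_apply, Pi.pow_apply]; ring
  have hd : ∀ β y, X 1 ∣ r0 β y ∧ X 1 ∣ r1 β y := fun β y => by
    obtain ⟨a, ha⟩ := hq β y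
    obtain ⟨b, hb⟩ := hf β y
    have j0 := i0 β y
    have j1 := i1 β y
    have j2 := i2 β y
    rw [ha, hb] at j0 j1 j2
    rcases WW_unit β y with h | h
    · rw [h] at j1 j2
      have k1 : r1 β y = X 1 * (WW 1 β y * F3 β y * a + F2 β y * a - q2 β y * b) := by
        linear_combination j2
      refine ⟨⟨WW 1 β y * (WW 1 β y * F3 β y * a + F2 β y * a - q2 β y * b) + F1 β y * a -
        q1 β y * b, ?_⟩, ⟨_, k1⟩⟩
      linear_combination j1 + WW 1 β y * k1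
    · rw [h] at j0 j1
      have k0 : r0 β y = X 1 * (q0 β y * b - WW 0 β y * F0 β y * a) := by
        linear_combination -j0
      refine ⟨⟨_, k0⟩, ⟨q1 β y * b + WW 0 β y * (q0 β y * b - WW 0 β y * F0 β y * a) -
        WW 0 β y * F1 β y * a, ?_⟩⟩
      linear_combination -j1 + WW 0 β y * k0
  have hdq : ∀ (F : Fam) β y, X 1 ∣ (F * q) β y := fun F β y => (hq β y).mul_left _
  have sm : ∀ (c : ℂ) (G : Fam) β y, X 1 ∣ G β y → X 1 ∣ (c • G) β y := fun c G β y h => by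
    simp only [Pi.smul_apply, smul_eq_C_mul]; exact h.mul_left _
  set c0 := hc α.2 (p 1) 0
  set c1 := hc α.2 (p 1) 1
  have e0 : WW 0 α p = C c0 := rfl
  have e1 : WW 1 α p = C c1 := rfl
  refine ⟨val_of_div ht (G := c1 • r0 + c0 • (F0 * q)) ?_ (fun β y => ?_) ?_,
    val_of_div ht (G := c1 • r1 - c0 • r0 + c0 • (F1 * q)) ?_ (fun β y => ?_) ?_,
    val_of_div ht (G := c1 • (F3 * q) - c0 • r1 + c0 • (F2 * q)) ?_ (fun β y => ?_) ?_⟩
  · exact add_mem (Submodule.smul_mem _ _ r0m) (Submodule.smul_mem _ _ (hqF _ hF0))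
  · exact dvd_add (sm _ _ _ _ (hd β y).1) (sm _ _ _ _ (hdq _ β y))
  · have := i0 α p
    rw [hfp, e0, e1] at this
    simp only [Pi.add_apply, Pi.smul_apply, Pi.mul_apply, smul_eq_C_mul]
    linear_combination -this
  · exact add_mem (sub_mem (Submodule.smul_mem _ _ r1m) (Submodule.smul_mem _ _ r0m))
      (Submodule.smul_mem _ _ (hqF _ hF1))
  · exact dvd_add (dvd_sub (sm _ _ _ _ (hd β y).2) (sm _ _ _ _ (hd β y).1))
      (sm _ _ _ _ (hdq _ β y))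
  · have := i1 α p
    rw [hfp, e0, e1] at this
    simp only [Pi.add_apply, Pi.sub_apply, Pi.smul_apply, Pi.mul_apply, smul_eq_C_mul]
    linear_combination -this
  · exact add_mem (sub_mem (Submodule.smul_mem _ _ (hqF _ hF3)) (Submodule.smul_mem _ _ r1m))
      (Submodule.smul_mem _ _ (hqF _ hF2))
  · exact dvd_add (dvd_sub (sm _ _ _ _ (hdq _ β y)) (sm _ _ _ _ (hd β y).2))
      (sm _ _ _ _ (hdq _ β y))
  · have := i2 α p
    rw [hfp, e0, e1] at this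
    simp only [Pi.add_apply, Pi.sub_apply, Pi.smul_apply, Pi.mul_apply, smul_eq_C_mul]
    linear_combination -this

theorem ff0 (ht : 1 - t ^ 2 ≠ 0) (α : Chart) (p : Fin 2 → ℂ) :
    WW 1 α p ^ 3 * ZZ t 0 α p - WW 0 α p ^ 3 * ZZ t 1 α p +
      C t * WW 0 α p ^ 2 * WW 1 α p * ZZ t 2 α p = -C (hc α.1 (p 0) 1) * X 1 := by
  have := comb_ZZ t (l0 t (hc α.2 (p 1))) α p
  rw [l0_Bm ht, l0_Bm ht] at this
  simp [l0] at this
  simp only [WW]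
  linear_combination this

theorem ff1 (ht : 1 - t ^ 2 ≠ 0) (α : Chart) (p : Fin 2 → ℂ) :
    WW 0 α p ^ 3 * ZZ t 0 α p + C t * WW 0 α p * WW 1 α p ^ 2 * ZZ t 1 α p -
      WW 1 α p ^ 3 * ZZ t 2 α p = C (hc α.1 (p 0) 0) * X 1 := by
  have := comb_ZZ t (l1 t (hc α.2 (p 1))) α p
  rw [l1_Bm ht, l1_Bm ht] at this
  simp [l1] at this
  simp only [WW]
  linear_combination this

theorem gg_ample {t : ℂ} (ht0 : t ≠ 0) (ht : 1 - t ^ 2 ≠ 0) : IsAmple (gg t) := by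
  refine ample_of fun α p => ?_
  have hz := ZZ_mem ht
  have hq0 : t • (ZZ t 1 * ZZ t 1) ∈ SS t 2 0 := Submodule.smul_mem _ _ (SS.mul (hz 1) (hz 1))
  have hq2 : t • (ZZ t 2 * ZZ t 2) ∈ SS t 2 0 := Submodule.smul_mem _ _ (SS.mul (hz 2) (hz 2))
  have hq1 : ZZ t 0 * ZZ t 0 - (1 + t ^ 2) • (ZZ t 1 * ZZ t 2) ∈ SS t 2 0 :=
    sub_mem (SS.mul (hz 0) (hz 0)) (Submodule.smul_mem _ _ (SS.mul (hz 1) (hz 2)))
  have hq : ∀ β y, X 1 ∣ (t • (ZZ t 1 * ZZ t 1) * WW 0 ^ 2 +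
      (ZZ t 0 * ZZ t 0 - (1 + t ^ 2) • (ZZ t 1 * ZZ t 2)) * WW 0 * WW 1 +
      t • (ZZ t 2 * ZZ t 2) * WW 1 ^ 2) β y := fun β y => by
    have a0 := ff0 ht β y
    have a1 := ff1 ht β y
    simp only [Pi.add_apply, Pi.sub_apply, Pi.smul_apply, Pi.mul_apply, Pi.pow_apply,
      smul_eq_C_mul, C_add, C_pow, C_1]
    rcases WW_unit β y with h | h
    · rw [h] at a0 a1 ⊢
      refine ⟨(WW 1 β y * ZZ t 2 β y - C t * ZZ t 1 β y) * -C (hc β.1 (y 0) 1) +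
        WW 1 β y * ZZ t 0 β y * C (hc β.1 (y 0) 0), ?_⟩
      linear_combination (WW 1 β y * ZZ t 2 β y - C t * ZZ t 1 β y) * a0 +
        WW 1 β y * ZZ t 0 β y * a1
    · rw [h] at a0 a1 ⊢
      refine ⟨WW 0 β y * ZZ t 0 β y * -C (hc β.1 (y 0) 1) +
        (WW 0 β y * ZZ t 1 β y - C t * ZZ t 2 β y) * C (hc β.1 (y 0) 0), ?_⟩
      linear_combination WW 0 β y * ZZ t 0 β y * a0 +
        (WW 0 β y * ZZ t 1 β y - C t * ZZ t 2 β y) * a1
  have key : (t • (ZZ t 1 * ZZ t 1)) α p ∈ Val (gg t) 2 (-2) (-2) α p ∧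
      (ZZ t 0 * ZZ t 0 - (1 + t ^ 2) • (ZZ t 1 * ZZ t 2)) α p ∈ Val (gg t) 2 (-2) (-2) α p ∧
      (t • (ZZ t 2 * ZZ t 2)) α p ∈ Val (gg t) 2 (-2) (-2) α p := by
    rcases fin2 α.1 with h | h
    · have e : ∀ (β : Chart) (y : Fin 2 → ℂ), (ZZ t 0 * WW 0 ^ 3 + (0 : Fam) * WW 0 ^ 2 * WW 1 +
          t • ZZ t 1 * WW 0 * WW 1 ^ 2 + -ZZ t 2 * WW 1 ^ 3) β y = C (hc β.1 (y 0) 0) * X 1 := fun β y => by
        simp only [Pi.add_apply, Pi.neg_apply, Pi.smul_apply, Pi.mul_apply, Pi.pow_apply,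
          Pi.zero_apply, smul_eq_C_mul]
        linear_combination ff1 ht β y
      refine bezout ht hq0 hq1 hq2 (hz 0) (zero_mem _) (Submodule.smul_mem _ t (hz 1))
        (neg_mem (hz 2)) hq (fun β y => ?_) ?_
      · rw [e]; exact dvd_mul_left _ _
      · rw [e, h]; simp [hc]
    · have e : ∀ (β : Chart) (y : Fin 2 → ℂ), (ZZ t 1 * WW 0 ^ 3 + -(t • ZZ t 2) * WW 0 ^ 2 * WW 1 +
          (0 : Fam) * WW 0 * WW 1 ^ 2 + -ZZ t 0 * WW 1 ^ 3) β y = C (hc β.1 (y 0) 1) * X 1 := fun β y => by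
        simp only [Pi.add_apply, Pi.neg_apply, Pi.smul_apply, Pi.mul_apply, Pi.pow_apply,
          Pi.zero_apply, smul_eq_C_mul]
        linear_combination -ff0 ht β y
      refine bezout ht hq0 hq1 hq2 (hz 1) (neg_mem (Submodule.smul_mem _ t (hz 2))) (zero_mem _)
        (neg_mem (hz 0)) hq (fun β y => ?_) ?_
      · rw [e]; exact dvd_mul_left _ _
      · rw [e, h]; simp [hc]
  have hv : ∀ j, ZZ t j α p ∈ Val (gg t) 1 1 1 α p := fun j =>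
    Val.mono ⟨_, ZZ_sec ht j, rfl⟩ (by norm_num) le_rfl
  refine ⟨ZZ t 0 α p, ZZ t 1 α p, ZZ t 2 α p, 1 + t ^ 2, hv 0, hv 1, hv 2, ?_, ?_, ?_, ?_⟩
  · have := Submodule.smul_mem _ t⁻¹ key.1
    simpa [smul_smul, ht0, sq] using this
  · have := Submodule.smul_mem _ t⁻¹ key.2.2
    simpa [smul_smul, ht0, sq] using this
  · simpa [sq] using key.2.1
  · have hs : ∀ a : Fin 3 → ℂ, C (a 0) * ZZ t 0 α p + C (a 1) * ZZ t 1 α p + C (a 2) * ZZ t 2 α p ∈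
        Submodule.span ℂ {ZZ t 0 α p, ZZ t 1 α p, ZZ t 2 α p} := fun a => by
      simp only [← smul_eq_C_mul]
      refine add_mem (add_mem ?_ ?_) ?_ <;>
        exact Submodule.smul_mem _ _ (Submodule.subset_span (by simp))
    intro i
    fin_cases i
    · have := hs (mv t α.2 (p 1))
      rw [comb_ZZ, mv_Bm ht, mv_Bm ht] at this
      simpa using this
    · have := hs (lam t α p)
      rw [comb_ZZ, lam_Bm ht, lam_Bm ht] at this
      simpa using this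

end Crest.Agent.R258
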