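import Mathlib

/-!
# Row 258: the chain of estimates (abstract, elementary)

Norms on `Fin 3 → ℂ` are sup norms.  Write `q W = ![W, W^2, 1]`, `S` for the supremum of `N z y`
over `‖z‖ ≤ 1`, `‖W y‖ ≤ 4` (finite by `hbd`), `Bd z b` for `∀ y, ‖W y‖ ≤ 4 → N z y ≤ b`.
By `hom`, `N z y ≤ ‖z‖^(7/4) S` when `‖W y‖ ≤ 4`.

(a) `z = q W₀ + e`, `‖W₀‖ ≤ 3`, `‖e‖ ≤ η ≤ 1/2`, `θ ≤ η`.  On `‖W y - W₀‖ = η` take `κ = 1 ± η`
  (`α = (η ∓ 1)/(2η)`, `‖α‖ ≤ 1/η`); `‖z - κ P y‖ ≤ C η`, so `N z y ≤ C η^(3/4) S` there, and by `hL`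
  `Bd z (a S)` with `a = C η^(3/4 - 7/10)`.
(b) `z = q W₁ + e`, `‖W₁‖ = r₁`, `‖e‖ ≤ δ ≤ 1/1000`, `{r₁, r₂} = {1, 2}`, `‖W y‖ = r₂`, `p = P y`.
  `Q z = z 0^2 - z 1 * z 2`, `2 B(z,p) = 2 z 0 p 0 - z 1 p 2 - z 2 p 1` (`= -(W - W₁)^2` for the exact
  points, so `‖2B‖ ≥ 1/2`), `κ = Q z / 2B`, `‖κ‖ ≤ C δ`, `Q (z - κ p) = κ^2 Q p = O(θ)`, hence
  `z' = z - κ p = z' 2 • (q W' + O(θ))` with `W' = z' 0 / z' 2`, `‖W'‖ ≤ 3`, and by (a) and `hom`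
  `N z' y ≤ C a S`.  With a second point `z - K p` (`‖K‖ ≥ 1`; `α'' = -κ/(K - κ)`, `α' = K/(K-κ)`)
  `N z y ≤ C a S + (C δ / K) N (z - K p) y`; then `hL` with `W₀ = 0`, `η = r₂` (factor `≤ 8`).
  * first use: `r₁ = 2`, `δ = 6/K`, second point `z - p` with the trivial bound `C S`:
    `Bd z b₂`, `b₂ = C (a + 1/K) S`;
  * second use: `r₁ = 1`, `δ = 1/1000`; `z - K p = -K • (q (W y) + e')` with `‖W y‖ = 2`,
    `‖e'‖ ≤ θ + 5/K ≤ 6/K`, so `N (z - K p) y ≤ K^(7/4) b₂` and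
    `Bd z b₁`, `b₁ = C (a S + K^(3/4) b₂) = C (a + K^(3/4) a + K^(-1/4)) S`.
(0) `‖z‖ ≤ 1`, `‖W y‖ = 1`: `κ = ± 2000`, `α = 1/2`, `z ∓ 2000 p = ∓ 2000 • (q (W y) + e)` with
  `‖e‖ ≤ 1/1000`, so `N z y ≤ 2000^(7/4) b₁`, and by `hL` (`W₀ = 0`, `η = 1`) `S ≤ C b₁`.
Choose `K`, then `η`, then `θ` so that this reads `S ≤ S/2`; so `S = 0`.
-/

set_option autoImplicit false
noncomputable section

namespace Crest.Agent.R258

theorem pow74 {x r : ℝ} (hx : 0 ≤ x) (hr : 0 ≤ r) (h : x ≤ r ^ 4) : x ^ (7 / 4 : ℝ) ≤ r ^ 7 := by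
  refine (Real.rpow_le_rpow hx h (by norm_num)).trans (le_of_eq ?_)
  rw [← Real.rpow_natCast r 4, ← Real.rpow_mul hr, ← Real.rpow_natCast r 7]
  norm_num

theorem pow710 {x r : ℝ} (hx : 0 ≤ x) (hr : 0 ≤ r) (h : x ≤ r ^ 10) :
    x ^ (7 / 10 : ℝ) ≤ r ^ 7 := by
  refine (Real.rpow_le_rpow hx h (by norm_num)).trans (le_of_eq ?_)
  rw [← Real.rpow_natCast r 10, ← Real.rpow_mul hr, ← Real.rpow_natCast r 7]
  norm_num

/-- the point of the conic with parameter `W` -/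
def qv (W : ℂ) : Fin 3 → ℂ := ![W, W ^ 2, 1]

theorem norm3_le {v : Fin 3 → ℂ} {r : ℝ} (h0 : ‖v 0‖ ≤ r) (h1 : ‖v 1‖ ≤ r) (h2 : ‖v 2‖ ≤ r) :
    ‖v‖ ≤ r := by
  refine (pi_norm_le_iff_of_nonneg ((norm_nonneg _).trans h0)).2 fun i => ?_
  fin_cases i <;> assumption

theorem norm_qv_le {W : ℂ} {r : ℝ} (hr : 1 ≤ r) (h : ‖W‖ ≤ r) : ‖qv W‖ ≤ r ^ 2 := by
  refine norm3_le ?_ ?_ ?_
  · change ‖W‖ ≤ _
    nlinarith
  · change ‖W ^ 2‖ ≤ _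
    rw [norm_pow]
    gcongr
  · change ‖(1 : ℂ)‖ ≤ _
    rw [norm_one]
    nlinarith

theorem norm_qv_sub_le {W W₀ : ℂ} {η : ℝ} (h : ‖W - W₀‖ ≤ η) (h1 : ‖W‖ ≤ 4) (h2 : ‖W₀‖ ≤ 3) :
    ‖qv W₀ - qv W‖ ≤ 7 * η := by
  have hη : 0 ≤ η := (norm_nonneg _).trans h
  rw [norm_sub_rev] at h
  refine norm3_le ?_ ?_ ?_
  · change ‖W₀ - W‖ ≤ _
    linarith
  · change ‖W₀ ^ 2 - W ^ 2‖ ≤ _
    rw [sq_sub_sq, norm_mul]
    have := norm_add_le W₀ W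
    gcongr
    linarith
  · change ‖(1 : ℂ) - 1‖ ≤ _
    simpa using hη

/-- the perturbed quadratic form -/
theorem quad_le {W e0 e1 e2 : ℂ} {δ : ℝ} (hW : ‖W‖ ≤ 2) (h0 : ‖e0‖ ≤ δ) (h1 : ‖e1‖ ≤ δ)
    (h2 : ‖e2‖ ≤ δ) (hδ : δ ≤ 1 / 1000) :
    ‖(W + e0) ^ 2 - (W ^ 2 + e1) * (1 + e2)‖ ≤ 10 * δ := by
  have hδ0 : 0 ≤ δ := (norm_nonneg _).trans h0
  have e : (W + e0) ^ 2 - (W ^ 2 + e1) * (1 + e2) =
      2 * W * e0 + e0 * e0 - W * W * e2 - e1 - e1 * e2 := by ring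
  have k : ‖2 * W * e0 + e0 * e0 - W * W * e2 - e1 - e1 * e2‖ ≤
      2 * 2 * δ + 1 / 1000 * δ + 2 * 2 * δ + δ + 1 / 1000 * δ := by
    have a0 := h0.trans hδ
    have a1 := h1.trans hδ
    refine norm_sub_le_of_le (norm_sub_le_of_le (norm_sub_le_of_le (norm_add_le_of_le ?_ ?_) ?_)
      h1) ?_ <;> simp only [norm_mul, Complex.norm_ofNat] <;> gcongr
  rw [e]
  linarith

/-- the perturbed bilinear form -/
theorem bil_ge {W V e0 e1 e2 f0 f1 f2 : ℂ} (hW : ‖W‖ ≤ 2) (hV : ‖V‖ ≤ 2) (hWV : 1 ≤ ‖W - V‖)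
    (h0 : ‖e0‖ ≤ 1 / 1000) (h1 : ‖e1‖ ≤ 1 / 1000) (h2 : ‖e2‖ ≤ 1 / 1000)
    (k0 : ‖f0‖ ≤ 1 / 1000) (k1 : ‖f1‖ ≤ 1 / 1000) (k2 : ‖f2‖ ≤ 1 / 1000) :
    1 / 2 ≤ ‖2 * (V + e0) * (W + f0) - (V ^ 2 + e1) * (1 + f2) - (1 + e2) * (W ^ 2 + f1)‖ := by
  have e : 2 * (V + e0) * (W + f0) - (V ^ 2 + e1) * (1 + f2) - (1 + e2) * (W ^ 2 + f1) =
      (2 * V * f0 + 2 * W * e0 + 2 * e0 * f0 - V * V * f2 - e1 - e1 * f2 - f1 - W * W * e2 -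
        e2 * f1) - (W - V) ^ 2 := by ring
  have k : ‖2 * V * f0 + 2 * W * e0 + 2 * e0 * f0 - V * V * f2 - e1 - e1 * f2 - f1 - W * W * e2 -
      e2 * f1‖ ≤ 2 * 2 * (1 / 1000) + 2 * 2 * (1 / 1000) + 2 * (1 / 1000) * (1 / 1000) +
        2 * 2 * (1 / 1000) + 1 / 1000 + 1 / 1000 * (1 / 1000) + 1 / 1000 + 2 * 2 * (1 / 1000) +
        1 / 1000 * (1 / 1000) := by
    refine norm_sub_le_of_le (norm_sub_le_of_le (norm_sub_le_of_le (norm_sub_le_of_le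
      (norm_sub_le_of_le (norm_sub_le_of_le (norm_add_le_of_le (norm_add_le_of_le ?_ ?_) ?_) ?_)
      h1) ?_) k1) ?_) ?_ <;> simp only [norm_mul, Complex.norm_ofNat] <;> gcongr
  have k' : 1 ≤ ‖(W - V) ^ 2‖ := by
    rw [norm_pow]
    exact one_le_pow₀ hWV
  rw [e, norm_sub_rev]
  refine le_trans ?_ (norm_sub_norm_le _ _)
  linarith

/-- the hypotheses of the chain, with a bound `S` on the unit ball -/
structure Hyp (θ : ℝ) {ι : Type} (W : ι → ℂ) (P : ι → Fin 3 → ℂ) (N : (Fin 3 → ℂ) → ι → ℝ)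
    (S : ℝ) : Prop where
  near : ∀ y, ‖W y‖ ≤ 4 → ‖P y - qv (W y)‖ ≤ θ
  pos : ∀ z y, 0 ≤ N z y
  hom : ∀ (c : ℂ) z y, N (c • z) y ≤ ‖c‖ ^ (7 / 4 : ℝ) * N z y
  tri : ∀ z y (α α' κ κ' : ℂ), α + α' = 1 → α * κ + α' * κ' = 0 →
    N z y ≤ ‖α‖ * N (z - κ • P y) y + ‖α'‖ * N (z - κ' • P y) y
  hL : ∀ z (W₀ : ℂ) (η b : ℝ), 0 < η → ‖W₀‖ + η ≤ 4 → 0 ≤ b →
    (∀ y, ‖W y - W₀‖ = η → N z y ≤ b) → ∀ y, ‖W y‖ ≤ 4 → N z y ≤ b * (8 / η) ^ (7 / 10 : ℝ)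
  S0 : 0 ≤ S
  bd : ∀ z y, ‖z‖ ≤ 1 → ‖W y‖ ≤ 4 → N z y ≤ S

namespace Hyp

variable {θ S : ℝ} {ι : Type} {W : ι → ℂ} {P : ι → Fin 3 → ℂ} {N : (Fin 3 → ℂ) → ι → ℝ}

theorem smul_le (h : Hyp θ W P N S) {c : ℂ} {r b : ℝ} (hr : 0 ≤ r) (hc : ‖c‖ ≤ r ^ 4)
    {z : Fin 3 → ℂ} {y : ι} (hb : N z y ≤ b) : N (c • z) y ≤ r ^ 7 * b :=
  (h.hom c z y).trans (mul_le_mul (pow74 (norm_nonneg _) hr hc) hb (h.pos _ _) (by positivity))

theorem le_pow (h : Hyp θ W P N S) {r : ℝ} (hr : 0 < r) {z : Fin 3 → ℂ} (hz : ‖z‖ ≤ r ^ 4) {y : ι}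
    (hy : ‖W y‖ ≤ 4) : N z y ≤ r ^ 7 * S := by
  have h4 : 0 < r ^ 4 := by positivity
  have e : z = ((r ^ 4 : ℝ) : ℂ) • ((((r ^ 4)⁻¹ : ℝ) : ℂ) • z) := by
    rw [smul_smul, ← Complex.ofReal_mul, mul_inv_cancel₀ h4.ne', Complex.ofReal_one, one_smul]
  rw [e]
  refine h.smul_le hr.le (by rw [Complex.norm_real, Real.norm_of_nonneg h4.le]) (h.bd _ _ ?_ hy)
  rw [norm_smul, Complex.norm_real, Real.norm_of_nonneg (inv_pos.2 h4).le,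
    inv_mul_le_iff₀ h4, mul_one]
  exact hz

theorem circ (h : Hyp θ W P N S) {z : Fin 3 → ℂ} {η b : ℝ} (h1 : 1 ≤ η) (h2 : η ≤ 4) (hb : 0 ≤ b)
    (hz : ∀ y, ‖W y‖ = η → N z y ≤ b) {y : ι} (hy : ‖W y‖ ≤ 4) : N z y ≤ 128 * b := by
  refine (h.hL z 0 η b (by linarith) (by simpa using h2) hb (fun y hy => hz y (by simpa using hy))
    y hy).trans ?_
  have : (8 / η) ^ (7 / 10 : ℝ) ≤ 2 ^ 7 := by
    refine pow710 (by positivity) (by norm_num) ?_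
    rw [div_le_iff₀ (by linarith)]
    linarith
  rw [mul_comm]
  exact mul_le_mul_of_nonneg_right (by linarith) hb

theorem stepA (h : Hyp θ W P N S) {t : ℝ} (ht : 0 < t) (ht1 : t ^ 20 ≤ 1 / 2) (hθ : θ ≤ t ^ 20)
    {W₀ : ℂ} (hW : ‖W₀‖ ≤ 3) {e : Fin 3 → ℂ} (he : ‖e‖ ≤ t ^ 20) {y : ι} (hy : ‖W y‖ ≤ 4) :
    N (qv W₀ + e) y ≤ 10 ^ 6 * t * S := by
  have hS := h.S0
  have hη : 0 < t ^ 20 := by positivity
  refine (h.hL _ W₀ (t ^ 20) (3 * 3 ^ 7 * t ^ 15 * S) hη (by linarith) (by positivity)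
    (fun y hy => ?_) y hy).trans ?_
  · have hy4 : ‖W y‖ ≤ 4 := by
      have := norm_sub_norm_le (W y) W₀
      linarith
    have hp := h.near y hy4
    have h1 : ‖qv W₀ + e - (1 : ℂ) • P y‖ ≤ 9 * t ^ 20 := by
      have e1 : qv W₀ + e - (1 : ℂ) • P y = (qv W₀ - qv (W y)) + e - (P y - qv (W y)) := by
        rw [one_smul]; abel
      rw [e1]
      have := norm_sub_le_of_le (norm_add_le_of_le (norm_qv_sub_le hy.le hy4 hW) he) hp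
      linarith
    have h2 : ‖P y‖ ≤ 17 := by
      have e1 : P y = qv (W y) + (P y - qv (W y)) := by abel
      rw [e1]
      have := norm_add_le_of_le (norm_qv_le (by norm_num) hy4) hp
      linarith
    have h3 : ‖qv W₀ + e - (1 + ((t ^ 20 : ℝ) : ℂ)) • P y‖ ≤ 26 * t ^ 20 := by
      rw [add_smul, ← sub_sub]
      refine (norm_sub_le_of_le h1 (le_refl _)).trans ?_
      rw [norm_smul, Complex.norm_real, Real.norm_of_nonneg hη.le]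
      have := mul_le_mul_of_nonneg_left h2 hη.le
      linarith
    have hc : ((t ^ 20 : ℝ) : ℂ) ≠ 0 := by exact_mod_cast hη.ne'
    have h4 := h.tri (qv W₀ + e) y (-((t ^ 20 : ℝ) : ℂ)⁻¹) (1 + ((t ^ 20 : ℝ) : ℂ)⁻¹)
      (1 + ((t ^ 20 : ℝ) : ℂ)) 1 (by ring) (by field_simp; ring)
    have h5 := h.le_pow (r := 3 * t ^ 5) (by positivity) (h1.trans (by
      have h81 : (3 * t ^ 5) ^ 4 = 81 * t ^ 20 := by ring
      linarith)) hy4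
    have h6 := h.le_pow (r := 3 * t ^ 5) (by positivity) (h3.trans (by
      have h81 : (3 * t ^ 5) ^ 4 = 81 * t ^ 20 := by ring
      linarith)) hy4
    have h7 : ‖-((t ^ 20 : ℝ) : ℂ)⁻¹‖ = (t ^ 20)⁻¹ := by
      rw [norm_neg, norm_inv, Complex.norm_real, Real.norm_of_nonneg hη.le]
    have h8 : ‖1 + ((t ^ 20 : ℝ) : ℂ)⁻¹‖ ≤ 2 * (t ^ 20)⁻¹ := by
      refine (norm_add_le _ _).trans ?_
      rw [norm_one, ← norm_neg, h7]
      have : 1 ≤ (t ^ 20)⁻¹ := (one_le_inv₀ hη).2 (by linarith)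
      linarith
    refine h4.trans ((add_le_add (mul_le_mul h7.le h6 (h.pos _ _) (by positivity))
      (mul_le_mul h8 h5 (h.pos _ _) (by positivity))).trans (le_of_eq ?_))
    field_simp
    ring
  · have h1 : (8 / t ^ 20) ^ (7 / 10 : ℝ) ≤ (2 / t ^ 2) ^ 7 := by
      refine pow710 (by positivity) (by positivity) ?_
      rw [div_pow, ← pow_mul]
      gcongr
      norm_num
    refine (mul_le_mul_of_nonneg_left h1 (by positivity)).trans ?_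
    have e : 3 * 3 ^ 7 * t ^ 15 * S * (2 / t ^ 2) ^ 7 = 3 * 6 ^ 7 * (t * S) := by
      field_simp
      ring
    have : 0 ≤ t * S := by positivity
    rw [e]
    linarith

theorem stepB (h : Hyp θ W P N S) {t : ℝ} (ht : 0 < t) (ht1 : t ^ 20 ≤ 1 / 1000)
    (hθ : 2 * θ ≤ t ^ 20) {V : ℂ} (hV : ‖V‖ ≤ 2) {e : Fin 3 → ℂ} {δ : ℝ} (he : ‖e‖ ≤ δ)
    (hδ : δ ≤ 1 / 1000) {y : ι} (hy : ‖W y‖ ≤ 2) (hWV : 1 ≤ ‖W y - V‖) {K : ℝ} (hK : 1 ≤ K) :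
    N (qv V + e) y ≤ 256 * (10 ^ 6 * t * S) + 40 * δ / K * N (qv V + e - (K : ℂ) • P y) y := by
  have hS := h.S0
  have hy4 : ‖W y‖ ≤ 4 := by linarith
  have hp := h.near y hy4
  have hθ0 : 0 ≤ θ := (norm_nonneg _).trans hp
  have hδ0 : 0 ≤ δ := (norm_nonneg _).trans he
  have hθ1 : θ ≤ 1 / 1000 := by linarith
  obtain ⟨f, hf⟩ : ∃ f, P y = qv (W y) + f := ⟨P y - qv (W y), by abel⟩
  rw [hf, add_sub_cancel_left] at hp
  have he' : ∀ i, ‖e i‖ ≤ δ := fun i => (norm_le_pi_norm e i).trans he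
  have hf' : ∀ i, ‖f i‖ ≤ θ := fun i => (norm_le_pi_norm f i).trans hp
  have hQz := quad_le hV (he' 0) (he' 1) (he' 2) hδ
  have hQp := quad_le hy (hf' 0) (hf' 1) (hf' 2) hθ1
  have hB := bil_ge hy hV hWV ((he' 0).trans hδ) ((he' 1).trans hδ) ((he' 2).trans hδ)
    ((hf' 0).trans hθ1) ((hf' 1).trans hθ1) ((hf' 2).trans hθ1)
  obtain ⟨B, hBd⟩ : ∃ B, B = 2 * (V + e 0) * (W y + f 0) - (V ^ 2 + e 1) * (1 + f 2) -
    (1 + e 2) * (W y ^ 2 + f 1) := ⟨_, rfl⟩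
  rw [← hBd] at hB
  have hB0 : B ≠ 0 := norm_pos_iff.1 (by linarith)
  obtain ⟨κ, hκd⟩ : ∃ κ, κ = ((V + e 0) ^ 2 - (V ^ 2 + e 1) * (1 + e 2)) / B := ⟨_, rfl⟩
  have hκ : ‖κ‖ ≤ 20 * δ := by
    rw [hκd, norm_div, div_le_iff₀ (by linarith)]
    have := mul_le_mul_of_nonneg_left hB hδ0
    linarith
  have hκ1 : ‖κ‖ ≤ 1 / 50 := by linarith
  have hκB : κ * B = (V + e 0) ^ 2 - (V ^ 2 + e 1) * (1 + e 2) := by
    rw [hκd, div_mul_cancel₀ _ hB0]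
  obtain ⟨z0, hz0⟩ : ∃ z0, z0 = V + e 0 - κ * (W y + f 0) := ⟨_, rfl⟩
  obtain ⟨z1, hz1⟩ : ∃ z1, z1 = V ^ 2 + e 1 - κ * (W y ^ 2 + f 1) := ⟨_, rfl⟩
  obtain ⟨z2, hz2⟩ : ∃ z2, z2 = 1 + e 2 - κ * (1 + f 2) := ⟨_, rfl⟩
  have hQ : z0 ^ 2 - z1 * z2 = κ * κ * ((W y + f 0) ^ 2 - (W y ^ 2 + f 1) * (1 + f 2)) := by
    rw [hz0, hz1, hz2]
    rw [hBd] at hκB
    linear_combination -hκB
  have hQ' : ‖z0 ^ 2 - z1 * z2‖ ≤ θ := by
    rw [hQ, norm_mul, norm_mul]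
    have : ‖κ‖ * ‖κ‖ * ‖(W y + f 0) ^ 2 - (W y ^ 2 + f 1) * (1 + f 2)‖ ≤
        1 / 50 * (1 / 50) * (10 * θ) := by gcongr
    linarith
  have hn0 : ‖z0‖ ≤ 21 / 10 := by
    have a1 : ‖κ * (W y + f 0)‖ ≤ 1 / 50 * (2 + 1 / 1000) := by
      rw [norm_mul]
      have := norm_add_le_of_le hy ((hf' 0).trans hθ1)
      gcongr
    have := norm_sub_le_of_le (norm_add_le_of_le hV ((he' 0).trans hδ)) a1
    rw [hz0]
    linarith
  have hn2 : ‖z2 - 1‖ ≤ 1 / 10 := by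
    have a1 : ‖κ * (1 + f 2)‖ ≤ 1 / 50 * (1 + 1 / 1000) := by
      rw [norm_mul]
      have := norm_add_le_of_le (norm_one (α := ℂ)).le ((hf' 2).trans hθ1)
      gcongr
    have := norm_sub_le_of_le ((he' 2).trans hδ) a1
    rw [hz2, show 1 + e 2 - κ * (1 + f 2) - 1 = e 2 - κ * (1 + f 2) by ring]
    linarith
  have hn2' := abs_le.1 ((abs_norm_sub_norm_le z2 1).trans hn2)
  rw [norm_one] at hn2'
  have hz2n : 0 < ‖z2‖ := by linarith [hn2'.1]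
  have hz20 : z2 ≠ 0 := norm_pos_iff.1 hz2n
  have hdec : qv V + e - κ • P y = z2 • (qv (z0 / z2) + ![0, -(z0 ^ 2 - z1 * z2) / z2 ^ 2, 0]) := by
    rw [hf]
    funext i
    fin_cases i
    · change V + e 0 - κ * (W y + f 0) = z2 * (z0 / z2 + 0)
      rw [← hz0]; field_simp; ring
    · change V ^ 2 + e 1 - κ * (W y ^ 2 + f 1) =
        z2 * ((z0 / z2) ^ 2 + -(z0 ^ 2 - z1 * z2) / z2 ^ 2)
      rw [← hz1]; field_simp; ring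
    · change 1 + e 2 - κ * (1 + f 2) = z2 * (1 + 0)
      rw [← hz2]; ring
  have h1 : N (qv V + e - κ • P y) y ≤ 2 ^ 7 * (10 ^ 6 * t * S) := by
    rw [hdec]
    refine h.smul_le (by norm_num) (by linarith [hn2'.2])
      (h.stepA ht (by linarith) (by linarith) ?_ ?_ hy4)
    · rw [norm_div, div_le_iff₀ hz2n]
      linarith [hn2'.1]
    · refine norm3_le (by simpa using by positivity) ?_ (by simpa using by positivity)
      change ‖-(z0 ^ 2 - z1 * z2) / z2 ^ 2‖ ≤ _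
      rw [norm_div, norm_neg, norm_pow, div_le_iff₀ (by positivity)]
      have a1 : 1 / 2 ≤ ‖z2‖ ^ 2 := by nlinarith [hn2'.1]
      have a2 := mul_le_mul_of_nonneg_left a1 (by positivity : 0 ≤ t ^ 20)
      linarith
  have hK0 : 0 < K := by linarith
  have hKκ : K / 2 ≤ ‖(K : ℂ) - κ‖ := by
    have := norm_sub_norm_le (K : ℂ) κ
    rw [Complex.norm_real, Real.norm_of_nonneg hK0.le] at this
    linarith
  have hKκ0 : (K : ℂ) - κ ≠ 0 := norm_pos_iff.1 (by linarith)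
  have h2 := h.tri (qv V + e) y (K / (K - κ)) (-κ / (K - κ)) κ K (by field_simp; ring) (by ring)
  have h3 : ‖(K : ℂ) / (K - κ)‖ ≤ 2 := by
    rw [norm_div, div_le_iff₀ (by linarith), Complex.norm_real, Real.norm_of_nonneg hK0.le]
    linarith
  have h4 : ‖-κ / ((K : ℂ) - κ)‖ ≤ 40 * δ / K := by
    rw [norm_div, norm_neg]
    refine (div_le_div₀ (by positivity) hκ (by linarith) hKκ).trans (le_of_eq ?_)
    field_simp
    ring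
  refine h2.trans (add_le_add ((mul_le_mul h3 h1 (h.pos _ _) (by norm_num)).trans (le_of_eq ?_))
    (mul_le_mul_of_nonneg_right h4 (h.pos _ _)))
  ring

theorem sub_smul_eq (z p w : Fin 3 → ℂ) {c : ℂ} (hc : c ≠ 0) :
    z - c • p = (-c) • (w + (p - w - c⁻¹ • z)) := by
  funext i
  simp only [Pi.sub_apply, Pi.smul_apply, Pi.add_apply, smul_eq_mul]
  field_simp
  ring

theorem half (h : Hyp θ W P N S) {t : ℝ} (ht : 0 < t) (ht1 : t ≤ 1 / 10 ^ 80)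
    (hθ : 2 * θ ≤ t ^ 20) {z : Fin 3 → ℂ} (hz : ‖z‖ ≤ 1) {y : ι} (hy : ‖W y‖ ≤ 4) :
    N z y ≤ S / 2 := by
  have hS := h.S0
  have ht2 : t ^ 20 ≤ t := pow_le_of_le_one ht.le (by linarith) (by norm_num)
  have ht3 : t ^ 20 ≤ 1 / 1000 := by linarith
  have htS : t * S ≤ 1 / 10 ^ 80 * S := by gcongr
  have htS0 : 0 ≤ t * S := by positivity
  have hP : ∀ y, ‖W y‖ ≤ 2 → ‖P y‖ ≤ 5 := by
    intro y hy
    have e1 : P y = qv (W y) + (P y - qv (W y)) := by abel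
    rw [e1]
    have := norm_add_le_of_le (norm_qv_le (by norm_num) hy) (h.near y (by linarith))
    linarith
  -- first use of (b)
  have b2 : ∀ (V : ℂ) (e : Fin 3 → ℂ), ‖V‖ = 2 → ‖e‖ ≤ 6 / 10 ^ 72 → ∀ y, ‖W y‖ ≤ 4 →
      N (qv V + e) y ≤ 10 ^ 7 / 10 ^ 72 * S := by
    intro V e hV he y hy
    refine (h.circ (η := 1) (b := 31000 / 10 ^ 72 * S) le_rfl (by norm_num) (by positivity)
      (fun y hy => ?_) hy).trans (by linarith)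
    have k1 := h.stepB ht ht3 hθ hV.le he (by norm_num) (y := y) (by linarith) (by
      have := norm_sub_norm_le V (W y)
      rw [norm_sub_rev]
      linarith) (K := 1) le_rfl
    have k2 := h.le_pow (r := 2) (by norm_num) (z := qv V + e - ((1 : ℝ) : ℂ) • P y) (by
      rw [Complex.ofReal_one, one_smul]
      have := norm_sub_le_of_le (norm_add_le_of_le (norm_qv_le (by norm_num) hV.le) he)
        (hP y (by linarith))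
      linarith) (y := y) (by linarith)
    linarith
  -- second use of (b)
  have b1 : ∀ (V : ℂ) (e : Fin 3 → ℂ), ‖V‖ = 1 → ‖e‖ ≤ 1 / 1000 → ∀ y, ‖W y‖ ≤ 4 →
      N (qv V + e) y ≤ 1 / 10 ^ 9 * S := by
    intro V e hV he y hy
    refine (h.circ (η := 2) (b := 1 / 10 ^ 12 * S) (by norm_num) (by norm_num) (by positivity)
      (fun y hy => ?_) hy).trans (by linarith)
    have k1 := h.stepB ht ht3 hθ (V := V) (by linarith) he le_rfl (y := y) hy.le (by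
      have := norm_sub_norm_le (W y) V
      linarith) (K := 10 ^ 72) (by norm_num)
    have hc : (((10 : ℝ) ^ 72 : ℝ) : ℂ) ≠ 0 := by
      exact_mod_cast (by norm_num : ((10 : ℝ) ^ 72) ≠ 0)
    have hn : ‖(((10 : ℝ) ^ 72 : ℝ) : ℂ)‖ = 10 ^ 72 := by
      rw [Complex.norm_real, Real.norm_of_nonneg (by norm_num)]
    have k2 : N (qv V + e - (((10 : ℝ) ^ 72 : ℝ) : ℂ) • P y) y ≤
        (10 ^ 18) ^ 7 * (10 ^ 7 / 10 ^ 72 * S) := by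
      rw [sub_smul_eq _ _ (qv (W y)) hc]
      refine h.smul_le (by norm_num) (by rw [norm_neg, hn]; norm_num)
        (b2 _ _ hy ?_ y (by linarith))
      refine (norm_sub_le_of_le (h.near y (by linarith)) le_rfl).trans ?_
      rw [norm_smul, norm_inv, hn]
      have := norm_add_le_of_le (norm_qv_le le_rfl hV.le) he
      linarith
    linarith
  -- step (0)
  refine (h.circ (η := 1) (b := 7 ^ 7 * (1 / 10 ^ 9 * S)) le_rfl (by norm_num) (by positivity)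
    (fun y hy => ?_) hy).trans (by linarith)
  have k : ∀ c : ℂ, ‖c‖ = 2000 → N (z - c • P y) y ≤ 7 ^ 7 * (1 / 10 ^ 9 * S) := by
    intro c hc
    rw [sub_smul_eq _ _ (qv (W y)) (norm_pos_iff.1 (by linarith))]
    refine h.smul_le (by norm_num) (by rw [norm_neg, hc]; norm_num) (b1 _ _ hy ?_ y (by linarith))
    refine (norm_sub_le_of_le (h.near y (by linarith)) le_rfl).trans ?_
    rw [norm_smul, norm_inv, hc]
    linarith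
  have k1 := h.tri z y (1 / 2) (1 / 2) 2000 (-2000) (by ring) (by ring)
  have k2 := k 2000 (by simp)
  have k3 := k (-2000) (by simp)
  have k4 : ‖(1 / 2 : ℂ)‖ = 1 / 2 := by simp
  rw [k4] at k1
  linarith

end Hyp

theorem chain : ∃ θ : ℝ, 0 < θ ∧ ∀ (ι : Type) (W : ι → ℂ) (P : ι → Fin 3 → ℂ)
    (N : (Fin 3 → ℂ) → ι → ℝ),
    (∀ y, ‖W y‖ ≤ 4 → ‖P y - ![W y, W y ^ 2, 1]‖ ≤ θ) →
    (∀ z y, 0 ≤ N z y) →
    (∀ (c : ℂ) z y, N (c • z) y ≤ ‖c‖ ^ (7 / 4 : ℝ) * N z y) →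
    (∀ z y (α α' κ κ' : ℂ), α + α' = 1 → α * κ + α' * κ' = 0 →
      N z y ≤ ‖α‖ * N (z - κ • P y) y + ‖α'‖ * N (z - κ' • P y) y) →
    (∃ C, ∀ z y, ‖z‖ ≤ 1 → ‖W y‖ ≤ 4 → N z y ≤ C) →
    (∀ z (W₀ : ℂ) (η b : ℝ), 0 < η → ‖W₀‖ + η ≤ 4 → 0 ≤ b →
      (∀ y, ‖W y - W₀‖ = η → N z y ≤ b) →
      ∀ y, ‖W y‖ ≤ 4 → N z y ≤ b * (8 / η) ^ (7 / 10 : ℝ)) →
    ∀ z y, ‖W y‖ ≤ 4 → N z y = 0 := by
  obtain ⟨t, ht, ht1⟩ : ∃ t : ℝ, 0 < t ∧ t ≤ 1 / 10 ^ 80 := ⟨_, by positivity, le_rfl⟩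
  refine ⟨t ^ 20 / 2, by positivity, ?_⟩
  rintro ι W P N h1 h2 h3 h4 ⟨C, hC⟩ h5 z y hy
  have hC0 : 0 ≤ C := (h2 0 y).trans (hC 0 y (by simp) hy)
  have key : ∀ n : ℕ, Hyp (t ^ 20 / 2) W P N (C * (1 / 2) ^ n) := by
    intro n
    refine ⟨h1, h2, h3, h4, h5, by positivity, ?_⟩
    induction n with
    | zero => simpa using hC
    | succ n ih =>
      intro z y hz hy
      have := Hyp.half (S := C * (1 / 2) ^ n) ⟨h1, h2, h3, h4, h5, by positivity, ih⟩ ht ht1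
        (by linarith) hz hy
      rw [pow_succ]
      linarith
  refine le_antisymm ?_ (h2 z y)
  have hlim : Filter.Tendsto (fun n : ℕ => (‖z‖ + 1) ^ 7 * (C * (1 / 2 : ℝ) ^ n)) Filter.atTop
      (nhds ((‖z‖ + 1) ^ 7 * (C * 0))) :=
    ((tendsto_pow_atTop_nhds_zero_of_lt_one (by norm_num) (by norm_num)).const_mul _).const_mul _
  rw [mul_zero, mul_zero] at hlim
  refine ge_of_tendsto' hlim fun n => (key n).le_pow (by positivity) ?_ hy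
  have h6 : 1 ≤ ‖z‖ + 1 := by linarith [norm_nonneg z]
  linarith [le_self_pow₀ h6 (by norm_num : 4 ≠ 0)]

end Crest.Agent.R258
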