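import Crest.Agent.R258.Defs

/-! # Row 258: `gg t` is a holomorphic cocycle -/

set_option autoImplicit false
noncomputable section
open Crest.AlgGeometry.QuadricBundle Matrix

namespace Crest.Agent.R258

theorem tau_self (α : Chart) (p : Fin 2 → ℂ) : tau α α p = p := by
  ext i; fin_cases i <;> simp [tau]

theorem tau_tau (α β γ : Chart) (p : Fin 2 → ℂ) : tau β γ (tau α β p) = tau α γ p := by
  obtain ⟨a, a'⟩ := α
  obtain ⟨b, b'⟩ := β
  obtain ⟨c, c'⟩ := γ
  ext i
  fin_cases i
  · rcases fin2 a with rfl | rfl <;> rcases fin2 b with rfl | rfl <;>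
      rcases fin2 c with rfl | rfl <;> simp [tau]
  · rcases fin2 a' with rfl | rfl <;> rcases fin2 b' with rfl | rfl <;>
      rcases fin2 c' with rfl | rfl <;> simp [tau]

theorem lineTrans_self (r s : ℤ) (α : Chart) (p : Fin 2 → ℂ) : lineTrans r s α α p = 1 := by
  simp [lineTrans]

theorem lt_aux (r : ℤ) (a b c : Fin 2) (x : ℂ) (h : a ≠ b → x ≠ 0) :
    (if a = b then 1 else x ^ r) * (if b = c then 1 else (if a = b then x else x⁻¹) ^ r) =
      if a = c then 1 else x ^ r := by
  rcases fin2 a with rfl | rfl <;> rcases fin2 b with rfl | rfl <;>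
    rcases fin2 c with rfl | rfl <;> simp <;>
    exact mul_inv_cancel₀ (zpow_ne_zero _ (h (by decide)))

theorem lineTrans_cocycle (r s : ℤ) {α β : Chart} (γ : Chart) {p : Fin 2 → ℂ}
    (hp : p ∈ overlap α β) :
    lineTrans r s α β p * lineTrans r s β γ (tau α β p) = lineTrans r s α γ p := by
  simp only [lineTrans, tau_zero, tau_one]
  rw [← lt_aux r α.1 β.1 γ.1 _ hp.1, ← lt_aux s α.2 β.2 γ.2 _ hp.2]
  ring

theorem lineTrans_differentiableOn (r s : ℤ) (α β : Chart) :
    DifferentiableOn ℂ (lineTrans r s α β) (overlap α β) := by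
  unfold lineTrans
  refine DifferentiableOn.mul ?_ ?_
  · split_ifs with h
    · exact differentiableOn_const _
    · exact DifferentiableOn.zpow (f := fun p : Fin 2 → ℂ => p 0) (by fun_prop)
        (Or.inl fun p hp => hp.1 h)
  · split_ifs with h
    · exact differentiableOn_const _
    · exact DifferentiableOn.zpow (f := fun p : Fin 2 → ℂ => p 1) (by fun_prop)
        (Or.inl fun p hp => hp.2 h)

theorem tau_differentiableOn (α β : Chart) : DifferentiableOn ℂ (tau α β) (overlap α β) := by
  rw [differentiableOn_pi]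
  intro i
  fin_cases i
  · change DifferentiableOn ℂ (fun p : Fin 2 → ℂ => if α.1 = β.1 then p 0 else (p 0)⁻¹) _
    split_ifs with h
    · fun_prop
    · exact DifferentiableOn.fun_inv (h := fun p : Fin 2 → ℂ => p 0) (by fun_prop)
        fun p hp => hp.1 h
  · change DifferentiableOn ℂ (fun p : Fin 2 → ℂ => if α.2 = β.2 then p 1 else (p 1)⁻¹) _
    split_ifs with h
    · fun_prop
    · exact DifferentiableOn.fun_inv (h := fun p : Fin 2 → ℂ => p 1) (by fun_prop)
        fun p hp => hp.2 h

theorem Bm_differentiable (t : ℂ) (α : Chart) (j : Fin 3) (i : Fin 2) :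
    Differentiable ℂ fun p => Bm t α p j i := by
  obtain ⟨a, b⟩ := α
  rcases fin2 a with rfl | rfl <;> rcases fin2 b with rfl | rfl <;> fin_cases j <;>
    fin_cases i <;> simp [Bm, pv, vv, cr, l0, l1, mv, hc] <;> fun_prop

theorem Cm_differentiable (t : ℂ) (α : Chart) (i : Fin 2) (j : Fin 3) :
    Differentiable ℂ fun p => Cm t α p i j := by
  obtain ⟨a, b⟩ := α
  rcases fin2 a with rfl | rfl <;> rcases fin2 b with rfl | rfl <;> fin_cases j <;>
    fin_cases i <;> simp [Cm, lam, l0, l1, mv, hc] <;> fun_prop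

theorem gg_cocycle {t : ℂ} (ht : 1 - t ^ 2 ≠ 0) : IsHoloCocycle (gg t) where
  refl α p := by rw [gg, tau_self, Cm_Bm ht, lineTrans_self, one_smul, transpose_one]
  holo α β i j := by
    simp only [gg, Matrix.smul_apply, transpose_apply, Matrix.mul_apply, smul_eq_mul]
    refine (lineTrans_differentiableOn _ _ α β).mul (DifferentiableOn.fun_sum fun k _ => ?_)
    exact ((Cm_differentiable t β j k).comp_differentiableOn (tau_differentiableOn α β)).mul
      (Bm_differentiable t α k i).differentiableOn
  cocycle α β γ p hp := by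
    simp only [gg]
    rw [smul_mul_smul_comm, lineTrans_cocycle _ _ _ hp.1, ← transpose_mul, tau_tau,
      Matrix.mul_assoc, ← Matrix.mul_assoc (Bm t β _), Bm_Cm_Bm ht hp.1]

end Crest.Agent.R258
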