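import Crest.Prelude.Def_QuadricBundle

/-!
# Row 258: the bundle

Over the point `(X, Y)` of a chart we have homogeneous coordinates `x = hc a X`, `w = hc b Y`
(fourth powers), two covectors `l0 t w`, `l1 t w` on `ℂ³` and the plane
`P = {z | x₀ (l0·z) + x₁ (l1·z) = 0}`, which contains `pv = l0 × l1`.  `Bm` is a frame of `P`,
`Cm` the dual coordinates.  The bundle `gg t` is `P^* ⊗ O(3,-1)`.
-/

set_option autoImplicit false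
noncomputable section
open Crest.AlgGeometry.QuadricBundle Matrix

namespace Crest.Agent.R258

/-- homogeneous coordinates (fourth powers) in the chart `a` -/
def hc (a : Fin 2) (X : ℂ) : Fin 2 → ℂ := if a = 0 then ![1, X ^ 4] else ![X ^ 4, 1]

def l0 (t : ℂ) (w : Fin 2 → ℂ) : Fin 3 → ℂ := ![w 1 ^ 3, -w 0 ^ 3, t * w 0 ^ 2 * w 1]

def l1 (t : ℂ) (w : Fin 2 → ℂ) : Fin 3 → ℂ := ![w 0 ^ 3, t * w 0 * w 1 ^ 2, -w 1 ^ 3]

/-- cross product -/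
def cr (u v : Fin 3 → ℂ) : Fin 3 → ℂ :=
  ![u 1 * v 2 - u 2 * v 1, u 2 * v 0 - u 0 * v 2, u 0 * v 1 - u 1 * v 0]

/-- the common point of the planes over `w` -/
def pv (t : ℂ) (w : Fin 2 → ℂ) : Fin 3 → ℂ := cr (l0 t w) (l1 t w)

/-- a covector with `mv · pv = 1` -/
def mv (t : ℂ) (b : Fin 2) (Y : ℂ) : Fin 3 → ℂ :=
  if b = 0 then ![-t * (1 - t ^ 2)⁻¹ * Y ^ 8, 0, 1] else ![-t * (1 - t ^ 2)⁻¹ * Y ^ 8, 1, 0]

/-- second frame vector -/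
def vv (t : ℂ) (α : Chart) (p : Fin 2 → ℂ) : Fin 3 → ℂ :=
  (-hc α.1 (p 0) 1) • cr (l1 t (hc α.2 (p 1))) (mv t α.2 (p 1)) +
    (hc α.1 (p 0) 0) • cr (mv t α.2 (p 1)) (l0 t (hc α.2 (p 1)))

/-- second coordinate covector -/
def lam (t : ℂ) (α : Chart) (p : Fin 2 → ℂ) : Fin 3 → ℂ :=
  if α.1 = 0 then l1 t (hc α.2 (p 1)) else -l0 t (hc α.2 (p 1))

/-- frame of the plane -/
def Bm (t : ℂ) (α : Chart) (p : Fin 2 → ℂ) : Matrix (Fin 3) (Fin 2) ℂ :=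
  Matrix.of fun j => ![pv t (hc α.2 (p 1)) j, vv t α p j]

/-- coordinates on the plane -/
def Cm (t : ℂ) (α : Chart) (p : Fin 2 → ℂ) : Matrix (Fin 2) (Fin 3) ℂ :=
  Matrix.of ![mv t α.2 (p 1), lam t α p]

/-- the bundle -/
def gg (t : ℂ) : Transition 2 := fun α β p =>
  lineTrans 3 (-1) α β p • (Cm t β (tau α β p) * Bm t α p)ᵀ

/-- `z` lies on the plane over `p` -/
def OnP (t : ℂ) (α : Chart) (p : Fin 2 → ℂ) (z : Fin 3 → ℂ) : Prop :=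
  hc α.1 (p 0) 0 * (l0 t (hc α.2 (p 1)) ⬝ᵥ z) + hc α.1 (p 0) 1 * (l1 t (hc α.2 (p 1)) ⬝ᵥ z) = 0

theorem fin2 (a : Fin 2) : a = 0 ∨ a = 1 := by omega

theorem hc_zero (X : ℂ) : hc 0 X = ![1, X ^ 4] := by simp [hc]

theorem hc_one (X : ℂ) : hc 1 X = ![X ^ 4, 1] := by simp [hc]

theorem mv_pv {t : ℂ} (ht : 1 - t ^ 2 ≠ 0) (b : Fin 2) (Y : ℂ) :
    mv t b Y ⬝ᵥ pv t (hc b Y) = 1 := by
  rcases fin2 b with rfl | rfl <;>
    simp [mv, pv, cr, l0, l1, hc, dotProduct, Fin.sum_univ_three] <;> field_simp <;> ring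

theorem cramer (a b m z : Fin 3 → ℂ) :
    (m ⬝ᵥ cr a b) • z = (m ⬝ᵥ z) • cr a b + (a ⬝ᵥ z) • cr b m + (b ⬝ᵥ z) • cr m a := by
  ext j
  fin_cases j <;> simp [cr, dotProduct, Fin.sum_univ_three] <;> ring

theorem dot_cr_left (a b : Fin 3 → ℂ) : a ⬝ᵥ cr a b = 0 := by
  simp [cr, dotProduct, Fin.sum_univ_three]; ring

theorem dot_cr_right (a b : Fin 3 → ℂ) : b ⬝ᵥ cr a b = 0 := by
  simp [cr, dotProduct, Fin.sum_univ_three]; ring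

theorem dot_cr_perm (a b m : Fin 3 → ℂ) : a ⬝ᵥ cr b m = m ⬝ᵥ cr a b := by
  simp [cr, dotProduct, Fin.sum_univ_three]; ring

theorem Bm_mulVec (t : ℂ) (α : Chart) (p : Fin 2 → ℂ) (c : Fin 2 → ℂ) :
    Bm t α p *ᵥ c = c 0 • pv t (hc α.2 (p 1)) + c 1 • vv t α p := by
  ext j
  simp [Bm, mulVec, dotProduct, Fin.sum_univ_two]; ring

theorem Cm_mulVec (t : ℂ) (α : Chart) (p : Fin 2 → ℂ) (z : Fin 3 → ℂ) :
    Cm t α p *ᵥ z = ![mv t α.2 (p 1) ⬝ᵥ z, lam t α p ⬝ᵥ z] := by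
  ext i
  fin_cases i <;> simp [Cm, mulVec]

theorem l0_pv (t : ℂ) (w : Fin 2 → ℂ) : l0 t w ⬝ᵥ pv t w = 0 := dot_cr_left _ _

theorem l1_pv (t : ℂ) (w : Fin 2 → ℂ) : l1 t w ⬝ᵥ pv t w = 0 := dot_cr_right _ _

theorem l0_vv {t : ℂ} (ht : 1 - t ^ 2 ≠ 0) (α : Chart) (p : Fin 2 → ℂ) :
    l0 t (hc α.2 (p 1)) ⬝ᵥ vv t α p = -hc α.1 (p 0) 1 := by
  have h := mv_pv ht α.2 (p 1)
  rw [pv, ← dot_cr_perm] at h
  simp only [vv, dotProduct_add, dotProduct_smul, h, dot_cr_right]; simp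

theorem l1_vv {t : ℂ} (ht : 1 - t ^ 2 ≠ 0) (α : Chart) (p : Fin 2 → ℂ) :
    l1 t (hc α.2 (p 1)) ⬝ᵥ vv t α p = hc α.1 (p 0) 0 := by
  have h := mv_pv ht α.2 (p 1)
  rw [pv, ← dot_cr_perm, ← dot_cr_perm] at h
  simp only [vv, dotProduct_add, dotProduct_smul, h, dot_cr_left]; simp

theorem mv_vv (t : ℂ) (α : Chart) (p : Fin 2 → ℂ) : mv t α.2 (p 1) ⬝ᵥ vv t α p = 0 := by
  simp only [vv, dotProduct_add, dotProduct_smul, dot_cr_left, dot_cr_right]; simp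

theorem l0_Bm {t : ℂ} (ht : 1 - t ^ 2 ≠ 0) (α : Chart) (p : Fin 2 → ℂ) (c : Fin 2 → ℂ) :
    l0 t (hc α.2 (p 1)) ⬝ᵥ (Bm t α p *ᵥ c) = -hc α.1 (p 0) 1 * c 1 := by
  simp only [Bm_mulVec, dotProduct_add, dotProduct_smul, l0_pv, l0_vv ht]; simp; ring

theorem l1_Bm {t : ℂ} (ht : 1 - t ^ 2 ≠ 0) (α : Chart) (p : Fin 2 → ℂ) (c : Fin 2 → ℂ) :
    l1 t (hc α.2 (p 1)) ⬝ᵥ (Bm t α p *ᵥ c) = hc α.1 (p 0) 0 * c 1 := by
  simp only [Bm_mulVec, dotProduct_add, dotProduct_smul, l1_pv, l1_vv ht]; simp; ring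

theorem lam_Bm {t : ℂ} (ht : 1 - t ^ 2 ≠ 0) (α : Chart) (p : Fin 2 → ℂ) (c : Fin 2 → ℂ) :
    lam t α p ⬝ᵥ (Bm t α p *ᵥ c) = c 1 := by
  rcases fin2 α.1 with h | h
  · simp only [lam, h, if_true, l1_Bm ht]; simp [hc]
  · have : ¬ α.1 = 0 := by omega
    simp only [lam, this, if_false, neg_dotProduct, l0_Bm ht]; simp [hc, this]

theorem mv_Bm {t : ℂ} (ht : 1 - t ^ 2 ≠ 0) (α : Chart) (p : Fin 2 → ℂ) (c : Fin 2 → ℂ) :
    mv t α.2 (p 1) ⬝ᵥ (Bm t α p *ᵥ c) = c 0 := by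
  simp only [Bm_mulVec, dotProduct_add, dotProduct_smul, mv_pv ht, mv_vv]; simp

theorem Cm_Bm_vec {t : ℂ} (ht : 1 - t ^ 2 ≠ 0) (α : Chart) (p : Fin 2 → ℂ) (c : Fin 2 → ℂ) :
    Cm t α p *ᵥ (Bm t α p *ᵥ c) = c := by
  rw [Cm_mulVec, mv_Bm ht, lam_Bm ht]
  ext i; fin_cases i <;> rfl

theorem mat_ext {m n : ℕ} {A B : Matrix (Fin m) (Fin n) ℂ} (h : ∀ c, A *ᵥ c = B *ᵥ c) : A = B := by
  ext i j
  have := congrFun (h (Pi.single j 1)) i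
  simpa using this

theorem Cm_Bm {t : ℂ} (ht : 1 - t ^ 2 ≠ 0) (α : Chart) (p : Fin 2 → ℂ) :
    Cm t α p * Bm t α p = 1 :=
  mat_ext fun c => by rw [← mulVec_mulVec, Cm_Bm_vec ht, one_mulVec]

theorem onP_Bm {t : ℂ} (ht : 1 - t ^ 2 ≠ 0) (α : Chart) (p : Fin 2 → ℂ) (c : Fin 2 → ℂ) :
    OnP t α p (Bm t α p *ᵥ c) := by
  rw [OnP, l0_Bm ht, l1_Bm ht]; ring

theorem Bm_Cm {t : ℂ} (ht : 1 - t ^ 2 ≠ 0) {α : Chart} {p : Fin 2 → ℂ} {z : Fin 3 → ℂ}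
    (hz : OnP t α p z) : Bm t α p *ᵥ (Cm t α p *ᵥ z) = z := by
  have h := cramer (l0 t (hc α.2 (p 1))) (l1 t (hc α.2 (p 1))) (mv t α.2 (p 1)) z
  have h1 := mv_pv ht α.2 (p 1)
  rw [pv] at h1
  rw [h1, one_smul] at h
  rw [Bm_mulVec, Cm_mulVec]
  conv_rhs => rw [h]
  have h0 : l0 t (hc α.2 (p 1)) ⬝ᵥ z = lam t α p ⬝ᵥ z * -hc α.1 (p 0) 1 ∧
      l1 t (hc α.2 (p 1)) ⬝ᵥ z = lam t α p ⬝ᵥ z * hc α.1 (p 0) 0 := by
    rw [OnP] at hz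
    rcases fin2 α.1 with h | h
    · simp only [lam, h, if_true, hc_zero] at hz ⊢
      simp at hz ⊢
      linear_combination hz
    · have : ¬ α.1 = 0 := by omega
      simp only [lam, this, if_false, neg_dotProduct] at hz ⊢
      simp only [h, hc_one] at hz ⊢
      simp at hz ⊢
      linear_combination hz
  rw [h0.1, h0.2]
  simp only [vv, pv, smul_add, smul_smul, add_assoc]
  simp

/-- scaling of the homogeneous coordinates on an overlap -/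
theorem hc_tau (a b : Fin 2) (X : ℂ) (h : a ≠ b → X ≠ 0) :
    hc a X = (if a = b then 1 else X ^ 4) • hc b (if a = b then X else X⁻¹) := by
  by_cases hab : a = b
  · simp [hab]
  · have hX := h hab
    rcases fin2 a with rfl | rfl <;> rcases fin2 b with rfl | rfl <;> simp at hab <;>
      simp [hc, hX]

theorem tau_zero (α β : Chart) (p : Fin 2 → ℂ) :
    tau α β p 0 = if α.1 = β.1 then p 0 else (p 0)⁻¹ := rfl

theorem tau_one (α β : Chart) (p : Fin 2 → ℂ) :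
    tau α β p 1 = if α.2 = β.2 then p 1 else (p 1)⁻¹ := rfl

theorem l0_smul (t c : ℂ) (w : Fin 2 → ℂ) : l0 t (c • w) = c ^ 3 • l0 t w := by
  ext j; fin_cases j <;> simp [l0] <;> ring

theorem l1_smul (t c : ℂ) (w : Fin 2 → ℂ) : l1 t (c • w) = c ^ 3 • l1 t w := by
  ext j; fin_cases j <;> simp [l1] <;> ring

theorem onP_tau {t : ℂ} {α β : Chart} {p : Fin 2 → ℂ} (hp : p ∈ overlap α β) {z : Fin 3 → ℂ}
    (hz : OnP t α p z) : OnP t β (tau α β p) z := by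
  rw [OnP, hc_tau α.1 β.1 _ hp.1, hc_tau α.2 β.2 _ hp.2, l0_smul, l1_smul] at hz
  rw [OnP, tau_zero, tau_one]
  have h1 : (if α.1 = β.1 then (1 : ℂ) else p 0 ^ 4) ≠ 0 := by
    split_ifs with h
    · exact one_ne_zero
    · exact pow_ne_zero _ (hp.1 h)
  have h2 : (if α.2 = β.2 then (1 : ℂ) else p 1 ^ 4) ≠ 0 := by
    split_ifs with h
    · exact one_ne_zero
    · exact pow_ne_zero _ (hp.2 h)
  simp only [smul_dotProduct, Pi.smul_apply, smul_eq_mul] at hz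
  apply mul_left_cancel₀ (mul_ne_zero h1 (pow_ne_zero 3 h2))
  linear_combination hz

theorem Bm_Cm_Bm {t : ℂ} (ht : 1 - t ^ 2 ≠ 0) {α β : Chart} {p : Fin 2 → ℂ}
    (hp : p ∈ overlap α β) :
    Bm t β (tau α β p) * Cm t β (tau α β p) * Bm t α p = Bm t α p :=
  mat_ext fun c => by
    rw [← mulVec_mulVec, ← mulVec_mulVec, Bm_Cm ht (onP_tau hp (onP_Bm ht α p c))]

/-- the pairing of a point of the plane with a fibre vector under a change of chart -/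
theorem pair_gg {t : ℂ} (ht : 1 - t ^ 2 ≠ 0) (α β : Chart) {p : Fin 2 → ℂ} {z : Fin 3 → ℂ}
    (hz : OnP t α p z) (v : Fin 2 → ℂ) :
    (Cm t α p *ᵥ z) ⬝ᵥ (gg t α β p *ᵥ v) =
      lineTrans 3 (-1) α β p * ((Cm t β (tau α β p) *ᵥ z) ⬝ᵥ v) := by
  rw [gg, smul_mulVec, dotProduct_smul, smul_eq_mul, dotProduct_mulVec, vecMul_transpose,
    ← mulVec_mulVec, Bm_Cm ht hz]

/-! ## The function `NN` (chart `(0,0)`) -/

/-- `l0 · z` in the chart `b = 0` -/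
def f0 (t : ℂ) (z : Fin 3 → ℂ) (Y : ℂ) : ℂ := l0 t (hc 0 Y) ⬝ᵥ z

/-- `l1 · z` in the chart `b = 0` -/
def f1 (t : ℂ) (z : Fin 3 → ℂ) (Y : ℂ) : ℂ := l1 t (hc 0 Y) ⬝ᵥ z

/-- admissible pairs `(X, v)` over `(z, Y)` -/
def Adm (t : ℂ) (H : MetricData 2) (z : Fin 3 → ℂ) (Y X : ℂ) (v : Fin 2 → ℂ) : Prop :=
  f0 t z Y ≠ 0 ∧ f1 t z Y ≠ 0 ∧ X ^ 4 * f1 t z Y + f0 t z Y = 0 ∧ hNormSq H (0, 0) ![X, Y] v ≤ 1

/-- the quantity that is maximised -/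
def Phi (t : ℂ) (z : Fin 3 → ℂ) (Y : ℂ) (v : Fin 2 → ℂ) : ℝ :=
  ‖(mv t 0 Y ⬝ᵥ z) * v 0 + f1 t z Y * v 1‖ * ‖f1 t z Y‖ ^ (3 / 4 : ℝ)

/-- the dual norm of `z`, in the trivialisation of the twist given by `|f1|^(3/4)` -/
def NN (t : ℂ) (H : MetricData 2) (z : Fin 3 → ℂ) (Y : ℂ) : ℝ :=
  sSup {r | ∃ X v, Adm t H z Y X v ∧ r = Phi t z Y v}

end Crest.Agent.R258
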