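import Crest.Agent.R258.Cocycle

/-!
# Row 258: growth of `Phi`

Sketch.  `hNormSq_lower`: minimum of a positive continuous function on `K × sphere`, homogeneity.
`Phi_le`: for admissible `(X, v)` choose the chart `β` with `β.1 = 0` iff `‖X‖ ≤ 1`, `β.2 = 0` iff
`‖Y‖ ≤ 1`; then `p' = tau (0,0) β ![X,Y]` is in the closed unit polydisc, `v = gg (0,0) β p *ᵥ v'`
with `v' = gg β (0,0) p' *ᵥ v` (cocycle), `hNormSq H β p' v' = hNormSq H (0,0) p v ≤ 1` (`compat`),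
so `‖v'‖ ≤ C`; by `pair_gg` the pairing in `Phi` is `lineTrans 3 (-1) * (Cm β p' z ⬝ᵥ v')`, of norm
`≤ ‖X‖^3 (or 1) * ‖Y‖⁻¹ (or 1) * C ‖z‖`; `‖X‖^3 ‖f1‖^(3/4) = ‖f0‖^(3/4)` and
`‖f_i‖ ≤ C ‖z‖ max 1 ‖Y‖ ^ 12`.
-/

set_option autoImplicit false
noncomputable section
open Crest.AlgGeometry.QuadricBundle Matrix
open scoped ComplexConjugate ComplexOrder

namespace Crest.Agent.R258

theorem hNormSq_smul (H : MetricData 2) (α : Chart) (q : Fin 2 → ℂ) (c : ℂ) (v : Fin 2 → ℂ) :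
    hNormSq H α q (c • v) = ‖c‖ ^ 2 * hNormSq H α q v := by
  have h : (∑ i, ∑ j, H α q i j * (c • v) i * conj ((c • v) j)) =
      ((‖c‖ ^ 2 : ℝ) : ℂ) * ∑ i, ∑ j, H α q i j * v i * conj (v j) := by
    have : ((‖c‖ ^ 2 : ℝ) : ℂ) = c * conj c := by
      rw [Complex.mul_conj, Complex.normSq_eq_norm_sq]
    rw [this]
    simp only [Fin.sum_univ_two, Pi.smul_apply, smul_eq_mul, map_mul]
    ring
  rw [hNormSq, h, Complex.re_ofReal_mul, hNormSq]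

theorem hNormSq_continuous {g : Transition 2} {H : MetricData 2} (hH : IsHermitianMetric g H)
    (α : Chart) : Continuous fun x : (Fin 2 → ℂ) × (Fin 2 → ℂ) => hNormSq H α x.1 x.2 := by
  unfold hNormSq
  refine Complex.continuous_re.comp (continuous_finsetSum _ fun i _ =>
    continuous_finsetSum _ fun j _ => ?_)
  refine Continuous.mul (Continuous.mul ?_ (by fun_prop)) (by fun_prop)
  exact (hH.smooth α i j).continuous.comp continuous_fst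

theorem hNormSq_pos {g : Transition 2} {H : MetricData 2} (hH : IsHermitianMetric g H)
    (α : Chart) (q : Fin 2 → ℂ) {v : Fin 2 → ℂ} (hv : v ≠ 0) : 0 < hNormSq H α q v := by
  have h := (hH.posDef α q).dotProduct_mulVec_pos (x := star v) (by simpa using hv)
  have h' := (Complex.lt_def.1 h).1
  refine lt_of_lt_of_eq h' ?_
  rw [hNormSq]
  congr 1
  simp [dotProduct, mulVec, Fin.sum_univ_two]
  ring

theorem hNormSq_lower {g : Transition 2} {H : MetricData 2} (hH : IsHermitianMetric g H)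
    (α : Chart) {K : Set (Fin 2 → ℂ)} (hK : IsCompact K) :
    ∃ c, 0 < c ∧ ∀ q ∈ K, ∀ v, c * ‖v‖ ^ 2 ≤ hNormSq H α q v := by
  obtain ⟨c, hc0, hc⟩ := (hK.prod (isCompact_sphere (0 : Fin 2 → ℂ) 1)).exists_forall_le'
    (hNormSq_continuous hH α).continuousOn (a := 0) (fun x hx => hNormSq_pos hH α _ (by
      intro h
      have := hx.2
      simp [h] at this))
  refine ⟨c, hc0, fun q hq v => ?_⟩
  by_cases hv : v = 0
  · simp [hv, hNormSq]
  · have hn : ‖v‖ ≠ 0 := norm_ne_zero_iff.2 hv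
    have h1 := hc (q, ((‖v‖⁻¹ : ℝ) : ℂ) • v) ⟨hq, by simp [norm_smul, hn]⟩
    simp only [hNormSq_smul, Complex.norm_real, norm_inv, norm_norm] at h1
    have : c * ‖v‖ ^ 2 ≤ ‖v‖⁻¹ ^ 2 * hNormSq H α q v * ‖v‖ ^ 2 := by gcongr
    calc _ ≤ _ := this
      _ = _ := by field_simp

theorem hNormSq_compat {g : Transition 2} {H : MetricData 2} (hH : IsHermitianMetric g H)
    {α β : Chart} {p : Fin 2 → ℂ} (hp : p ∈ overlap α β) (v : Fin 2 → ℂ) :
    hNormSq H β (tau α β p) v = hNormSq H α p (g α β p *ᵥ v) := by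
  rw [hNormSq, hNormSq, hH.compat α β p hp]
  congr 1
  simp [Matrix.mul_apply, mulVec, dotProduct, Fin.sum_univ_two]
  ring

theorem dot3_le (a z : Fin 3 → ℂ) (M : ℝ) (h : ∀ j, ‖a j‖ ≤ M) : ‖a ⬝ᵥ z‖ ≤ 3 * ‖z‖ * M := by
  have hM : 0 ≤ M := (norm_nonneg _).trans (h 0)
  have : ∀ j, ‖a j * z j‖ ≤ M * ‖z‖ := fun j => by
    rw [norm_mul]; gcongr
    · exact h j
    · exact norm_le_pi_norm z j
  simp only [dotProduct, Fin.sum_univ_three]
  have h3 := norm_add₃_le (a := a 0 * z 0) (b := a 1 * z 1) (c := a 2 * z 2)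
  linarith [this 0, this 1, this 2]

theorem pow_le_max (Y : ℂ) {k n : ℕ} (h : k ≤ n) : ‖Y‖ ^ k ≤ max 1 ‖Y‖ ^ n :=
  (pow_le_pow_left₀ (norm_nonneg _) (le_max_right 1 _) k).trans
    (pow_le_pow_right₀ (le_max_left _ _) h)

theorem f0_le {t : ℂ} (ht : ‖t‖ ≤ 1) (z : Fin 3 → ℂ) (Y : ℂ) :
    ‖f0 t z Y‖ ≤ 3 * ‖z‖ * max 1 ‖Y‖ ^ 12 := by
  refine dot3_le _ _ _ fun j => ?_
  fin_cases j
  · simpa [l0, hc, ← pow_mul] using pow_le_max Y (le_refl 12)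
  · simpa [l0, hc] using pow_le_max Y (Nat.zero_le 12)
  · have := pow_le_max Y (show 4 ≤ 12 by norm_num)
    simp [l0, hc]
    nlinarith [norm_nonneg t, pow_nonneg (norm_nonneg Y) 4]

theorem f1_le {t : ℂ} (ht : ‖t‖ ≤ 1) (z : Fin 3 → ℂ) (Y : ℂ) :
    ‖f1 t z Y‖ ≤ 3 * ‖z‖ * max 1 ‖Y‖ ^ 12 := by
  refine dot3_le _ _ _ fun j => ?_
  fin_cases j
  · simpa [l1, hc] using pow_le_max Y (Nat.zero_le 12)
  · have := pow_le_max Y (show 8 ≤ 12 by norm_num)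
    simp [l1, hc, ← pow_mul]
    nlinarith [norm_nonneg t, pow_nonneg (norm_nonneg Y) 8]
  · simpa [l1, hc, ← pow_mul] using pow_le_max Y (le_refl 12)

theorem Adm.onP {t : ℂ} {H : MetricData 2} {z : Fin 3 → ℂ} {Y X : ℂ} {v : Fin 2 → ℂ}
    (h : Adm t H z Y X v) : OnP t (0, 0) ![X, Y] z := by
  have := h.2.2.1
  simp only [OnP, f0, f1] at this ⊢
  simp [hc_zero] at this ⊢
  linear_combination this

theorem pair_chart {t : ℂ} {H : MetricData 2} (hH : IsHermitianMetric (gg t) H) (β : Chart) :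
    ∃ C, 0 ≤ C ∧ ∀ q ∈ Metric.closedBall (0 : Fin 2 → ℂ) 1, ∀ z v, hNormSq H β q v ≤ 1 →
      ‖(Cm t β q *ᵥ z) ⬝ᵥ v‖ ≤ C * ‖z‖ := by
  obtain ⟨c, hc0, hc⟩ := hNormSq_lower hH β (isCompact_closedBall (0 : Fin 2 → ℂ) 1)
  have hcont : Continuous fun q => (fun i j => Cm t β q i j : Fin 2 → Fin 3 → ℂ) :=
    continuous_pi fun i => continuous_pi fun j => (Cm_differentiable t β i j).continuous
  obtain ⟨M, hM⟩ := (isCompact_closedBall (0 : Fin 2 → ℂ) 1).exists_bound_of_continuousOn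
    hcont.continuousOn
  have hM0 : 0 ≤ M := (norm_nonneg _).trans (hM 0 (by simp))
  refine ⟨2 * (3 * M) * √c⁻¹, by positivity, fun q hq z v hv => ?_⟩
  have h1 : ‖v‖ ≤ √c⁻¹ := by
    apply Real.le_sqrt_of_sq_le
    rw [← one_div, le_div_iff₀ hc0]
    linarith [hc q hq v]
  have h2 : ∀ i, ‖(Cm t β q *ᵥ z) i * v i‖ ≤ 3 * ‖z‖ * M * √c⁻¹ := fun i => by
    rw [norm_mul]
    gcongr
    · exact dot3_le _ _ _ fun j => ((norm_le_pi_norm _ j).trans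
        (norm_le_pi_norm (fun i j => Cm t β q i j : Fin 2 → Fin 3 → ℂ) i)).trans (hM q hq)
    · exact (norm_le_pi_norm v i).trans h1
  simp only [dotProduct, Fin.sum_univ_two]
  linarith [norm_add_le ((Cm t β q *ᵥ z) 0 * v 0) ((Cm t β q *ᵥ z) 1 * v 1), h2 0, h2 1]

theorem Phi_le {t : ℂ} (ht1 : ‖t‖ ≤ 1) (ht : 1 - t ^ 2 ≠ 0) {H : MetricData 2}
    (hH : IsHermitianMetric (gg t) H) :
    ∃ C, 0 ≤ C ∧ ∀ z Y X v, Adm t H z Y X v →
      Phi t z Y v ≤ C * ‖z‖ ^ (7 / 4 : ℝ) * max 1 ‖Y‖ ^ 8 := by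
  choose C hC0 hC using pair_chart hH
  refine ⟨(∑ β, C β) * 3, mul_nonneg (Finset.sum_nonneg fun β _ => hC0 β) (by norm_num),
    fun z Y X v hA => ?_⟩
  set β : Chart := (if ‖X‖ ≤ 1 then 0 else 1, if ‖Y‖ ≤ 1 then 0 else 1) with hβ
  set p : Fin 2 → ℂ := ![X, Y] with hp
  have hpo : p ∈ overlap (0, 0) β := by
    constructor
    · intro h h0
      simp [hp] at h0
      simp [hβ, h0] at h
    · intro h h0
      simp [hp] at h0
      simp [hβ, h0] at h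
  have hpo' : tau (0, 0) β p ∈ overlap β (0, 0) := by
    constructor
    · intro h
      rw [tau_zero, if_neg (Ne.symm h)]
      exact inv_ne_zero (hpo.1 (Ne.symm h))
    · intro h
      rw [tau_one, if_neg (Ne.symm h)]
      exact inv_ne_zero (hpo.2 (Ne.symm h))
  have hball : tau (0, 0) β p ∈ Metric.closedBall (0 : Fin 2 → ℂ) 1 := by
    rw [mem_closedBall_zero_iff, pi_norm_le_iff_of_nonneg zero_le_one]
    intro i
    fin_cases i
    · by_cases h : ‖X‖ ≤ 1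
      · simp [tau, hβ, hp, h]
      · simp [tau, hβ, hp, h]
        exact inv_le_one_of_one_le₀ (not_le.1 h).le
    · by_cases h : ‖Y‖ ≤ 1
      · simp [tau, hβ, hp, h]
      · simp [tau, hβ, hp, h]
        exact inv_le_one_of_one_le₀ (not_le.1 h).le
  set v' := gg t β (0, 0) (tau (0, 0) β p) *ᵥ v with hv'
  have hvv : gg t (0, 0) β p *ᵥ v' = v := by
    rw [hv', mulVec_mulVec, (gg_cocycle ht).cocycle _ _ _ p ⟨hpo, by simp [overlap]⟩,
      (gg_cocycle ht).refl, one_mulVec]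
  have hn : hNormSq H β (tau (0, 0) β p) v' ≤ 1 := by
    rw [hNormSq_compat hH hpo, hvv]; exact hA.2.2.2
  have h1 := hC β _ hball z v' hn
  have h2 := pair_gg ht (0, 0) β hA.onP v'
  rw [hvv, Cm_mulVec] at h2
  have h3 : (mv t 0 Y ⬝ᵥ z) * v 0 + f1 t z Y * v 1 =
      lineTrans 3 (-1) (0, 0) β p * ((Cm t β (tau (0, 0) β p) *ᵥ z) ⬝ᵥ v') := by
    rw [← h2]
    simp [dotProduct, Fin.sum_univ_two, lam, f1, hp]
  have hCβ : C β ≤ ∑ β, C β := Finset.single_le_sum (fun β _ => hC0 β) (Finset.mem_univ β)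
  have hM1 : 1 ≤ max 1 ‖Y‖ := le_max_left _ _
  have hf : ∀ f : ℂ, ‖f‖ ≤ 3 * ‖z‖ * max 1 ‖Y‖ ^ 12 →
      ‖f‖ ^ (3 / 4 : ℝ) ≤ 3 * ‖z‖ ^ (3 / 4 : ℝ) * max 1 ‖Y‖ ^ 9 := fun f hf => by
    refine (Real.rpow_le_rpow (norm_nonneg _) hf (by norm_num)).trans ?_
    rw [Real.mul_rpow (by positivity) (by positivity), Real.mul_rpow (by positivity)
      (by positivity), ← Real.rpow_natCast, ← Real.rpow_mul (by positivity),
      ← Real.rpow_natCast]
    norm_num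
    gcongr
    simpa using Real.rpow_le_rpow_of_exponent_le (show (1 : ℝ) ≤ 3 by norm_num)
      (show (3 / 4 : ℝ) ≤ 1 by norm_num)
  have hX : ‖(if (0 : Fin 2) = β.1 then (1 : ℂ) else X ^ (3 : ℤ))‖ * ‖f1 t z Y‖ ^ (3 / 4 : ℝ) ≤
      3 * ‖z‖ ^ (3 / 4 : ℝ) * max 1 ‖Y‖ ^ 9 := by
    split_ifs
    · simpa using hf _ (f1_le ht1 z Y)
    · refine le_trans (le_of_eq ?_) (hf _ (f0_le ht1 z Y))
      have : f0 t z Y = -(X ^ 4 * f1 t z Y) := by linear_combination hA.2.2.1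
      rw [this, norm_neg, norm_mul, Real.mul_rpow (by positivity) (by positivity), norm_pow,
        ← Real.rpow_natCast, ← Real.rpow_mul (by positivity), norm_zpow, ← Real.rpow_intCast]
      norm_num
  have hY : ‖(if (0 : Fin 2) = β.2 then (1 : ℂ) else Y ^ (-1 : ℤ))‖ * max 1 ‖Y‖ ^ 9 ≤
      max 1 ‖Y‖ ^ 8 := by
    by_cases h : ‖Y‖ ≤ 1
    · simp [hβ, h]
    · have h' := (not_le.1 h)
      simp only [hβ, h, if_false, max_eq_right h'.le]
      simp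
      rw [inv_mul_le_iff₀ (by positivity)]
      exact le_of_eq (by ring)
  have hz : ‖z‖ ^ (7 / 4 : ℝ) = ‖z‖ * ‖z‖ ^ (3 / 4 : ℝ) := by
    rw [← Real.rpow_one_add' (norm_nonneg _) (by norm_num)]; norm_num
  rw [Phi, h3, norm_mul, lineTrans, norm_mul, hz]
  simp only [hp, cons_val_zero, cons_val_one] at hX hY ⊢
  set a := ‖(if (0 : Fin 2) = β.1 then (1 : ℂ) else X ^ (3 : ℤ))‖
  set b := ‖(if (0 : Fin 2) = β.2 then (1 : ℂ) else Y ^ (-1 : ℤ))‖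
  have ha : 0 ≤ a := norm_nonneg _
  have hb : 0 ≤ b := norm_nonneg _
  calc _ = b * (a * ‖f1 t z Y‖ ^ (3 / 4 : ℝ)) * ‖(Cm t β (tau (0, 0) β ![X, Y]) *ᵥ z) ⬝ᵥ v'‖ := by
        ring
    _ ≤ b * (3 * ‖z‖ ^ (3 / 4 : ℝ) * max 1 ‖Y‖ ^ 9) * ((∑ β, C β) * ‖z‖) := by
        gcongr
        exact h1.trans (by gcongr)
    _ = (∑ β, C β) * 3 * (‖z‖ * ‖z‖ ^ (3 / 4 : ℝ)) * (b * max 1 ‖Y‖ ^ 9) := by ring
    _ ≤ _ := by
        have := (hC0 β).trans hCβ
        gcongr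

end Crest.Agent.R258
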