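import Crest.Prelude.Def_QuadricBundle

/-!
# Row 258: Griffiths positivity forbids a local maximum of the dual norm along analytic curves

Sketch.  Take `s` from positivity at `p = γ 0`, `ξ = deriv γ 0`, `v₀`, and `σ τ = s (p + τ • ξ)`
(analytic at `0`, one variable).  `K (q, v) = hNormSq H α q v` is `C²`.  For `Γ : ℂ → E` analytic
at `0` and `K` of class `C²`, `(d/dt)² K (Γ t) + (d/dt)² K (Γ (t I))` at `0` equals
`D²K (Γ', Γ') + D²K (I Γ', I Γ')` (the terms `DK (Γ'')`, `DK (-Γ'')` cancel), so it depends only on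
the 1-jet of `Γ`; `(γ, σ)` and `(p + τ ξ, σ)` have the same 1-jet, so the Laplacian of
`K (γ τ, σ τ)` at `0` is `leviAlong … < 0`.  With `A τ = u τ ⬝ᵥ σ τ` (analytic) the function
`m² K (γ τ, σ τ) - 2 Re (conj (A 0) A τ) + ‖A 0‖² ≥ ‖A τ - A 0‖² ≥ 0` vanishes at `0`
(`m² = ‖A 0‖² ≤ m² K ≤ m²`), so both second derivatives are `≥ 0`, while their sum is
`m² levi + 0 < 0`.
-/

set_option autoImplicit false
noncomputable section
open Crest.AlgGeometry.QuadricBundle Matrix Filter Topology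

namespace Crest.Agent.R258

section aux
variable {E : Type*} [NormedAddCommGroup E] [NormedSpace ℂ E] [CompleteSpace E]

theorem levi_hasDerivAt_line {Γ : ℂ → E} {w : ℂ} {t : ℝ} (h : DifferentiableAt ℂ Γ (t * w)) :
    HasDerivAt (fun t : ℝ => Γ (t * w)) (w • deriv Γ (t * w)) t := by
  have h1 : HasDerivAt (fun t : ℝ => (t : ℂ) * w) w t := by
    simpa using (Complex.ofRealCLM.hasDerivAt (x := t)).mul_const w
  have h2 := (h.hasDerivAt.hasFDerivAt.restrictScalars ℝ).comp_hasDerivAt t h1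
  simpa [Function.comp_def] using h2

theorem levi_tendsto (w : ℂ) : Tendsto (fun t : ℝ => (t : ℂ) * w) (𝓝 0) (𝓝 0) := by
  have : Continuous (fun t : ℝ => (t : ℂ) * w) := by fun_prop
  simpa using this.tendsto 0

theorem levi_second {K : E → ℝ} (hK : ContDiff ℝ 2 K) {Γ : ℂ → E} (hΓ : AnalyticAt ℂ Γ 0)
    (w : ℂ) :
    deriv (deriv fun t : ℝ => K (Γ (t * w))) 0 =
      fderiv ℝ (fderiv ℝ K) (Γ 0) (w • deriv Γ 0) (w • deriv Γ 0) +
        fderiv ℝ K (Γ 0) (w • w • deriv (deriv Γ) 0) := by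
  have hK1 : Differentiable ℝ K := hK.differentiable (by norm_num)
  have hK2 : Differentiable ℝ (fderiv ℝ K) :=
    (hK.fderiv_right (m := 1) (by norm_num)).differentiable (by norm_num)
  have e1 : (deriv fun t : ℝ => K (Γ (t * w))) =ᶠ[𝓝 0]
      fun t : ℝ => fderiv ℝ K (Γ (t * w)) (w • deriv Γ (t * w)) := by
    filter_upwards [(levi_tendsto w).eventually hΓ.eventually_analyticAt] with t ht
    exact ((hK1 _).hasFDerivAt.comp_hasDerivAt t (levi_hasDerivAt_line ht.differentiableAt)).deriv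
  rw [e1.deriv_eq]
  have d1 : HasDerivAt (fun t : ℝ => Γ (t * w)) (w • deriv Γ 0) 0 := by
    simpa using levi_hasDerivAt_line (Γ := Γ) (w := w) (t := 0)
      (by simpa using hΓ.differentiableAt)
  have d2 : HasDerivAt (fun t : ℝ => deriv Γ (t * w)) (w • deriv (deriv Γ) 0) 0 := by
    simpa using levi_hasDerivAt_line (Γ := deriv Γ) (w := w) (t := 0)
      (by simpa using hΓ.deriv.differentiableAt)
  have d3 : HasDerivAt (fun t : ℝ => fderiv ℝ K (Γ (t * w)))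
      (fderiv ℝ (fderiv ℝ K) (Γ 0) (w • deriv Γ 0)) 0 := by
    have := (hK2 (Γ (((0 : ℝ) : ℂ) * w))).hasFDerivAt.comp_hasDerivAt (0 : ℝ) d1
    rw [Complex.ofReal_zero, zero_mul] at this
    exact this
  have d4 := d3.clm_apply (d2.const_smul w)
  simpa using d4.deriv

/-- The Laplacian at `0` of `K ∘ Γ`. -/
def lap (f : ℂ → ℝ) : ℝ :=
  deriv (deriv fun t : ℝ => f (t * 1)) 0 + deriv (deriv fun t : ℝ => f (t * Complex.I)) 0

theorem lap_comp {K : E → ℝ} (hK : ContDiff ℝ 2 K) {Γ : ℂ → E} (hΓ : AnalyticAt ℂ Γ 0) :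
    lap (fun τ => K (Γ τ)) =
      fderiv ℝ (fderiv ℝ K) (Γ 0) (deriv Γ 0) (deriv Γ 0) +
      fderiv ℝ (fderiv ℝ K) (Γ 0) (Complex.I • deriv Γ 0) (Complex.I • deriv Γ 0) := by
  rw [lap, levi_second hK hΓ, levi_second hK hΓ]
  simp [smul_smul]
  ring

theorem levi_contDiffAt {K : E → ℝ} (hK : ContDiff ℝ 2 K) {Γ : ℂ → E} (hΓ : AnalyticAt ℂ Γ 0)
    (w : ℂ) : ContDiffAt ℝ 2 (fun t : ℝ => K (Γ (t * w))) 0 := by
  have h1 : ContDiffAt ℝ 2 Γ (((0 : ℝ) : ℂ) * w) := by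
    simpa using (hΓ.contDiffAt (n := 2)).restrict_scalars ℝ
  have h2 : ContDiffAt ℝ 2 (fun t : ℝ => (t : ℂ) * w) 0 :=
    (Complex.ofRealCLM.contDiff.mul contDiff_const).contDiffAt
  exact hK.contDiffAt.comp 0 (h1.comp (f := fun t : ℝ => (t : ℂ) * w) 0 h2)

end aux

theorem deriv2_nonneg_of_isLocalMin {f : ℝ → ℝ} (hf : IsLocalMin f 0) (hc : ContinuousAt f 0) :
    0 ≤ deriv (deriv f) 0 := by
  by_contra hlt
  push Not at hlt
  have h1 := isLocalMax_of_deriv_deriv_neg hlt hf.deriv_eq_zero hc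
  have h2 : f =ᶠ[𝓝 0] fun _ => f 0 := by
    filter_upwards [h1, hf] with t a b using le_antisymm a b
  rw [h2.deriv.deriv_eq] at hlt
  simp at hlt

theorem deriv2_comb {f g : ℝ → ℝ} (hf : ContDiffAt ℝ 2 f 0) (hg : ContDiffAt ℝ 2 g 0) (c : ℝ) :
    deriv (deriv fun t => c * f t - g t) 0 = c * deriv (deriv f) 0 - deriv (deriv g) 0 := by
  have h1 := iteratedDeriv_sub (n := 2) (f := fun t => c * f t) (contDiffAt_const.mul hf) hg
  rw [iteratedDeriv_const_mul_field] at h1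
  simp only [iteratedDeriv_succ, iteratedDeriv_zero] at h1
  exact h1


theorem no_local_max (H : MetricData 2) (α : Chart)
    (hH : ∀ i j, ContDiff ℝ (⊤ : ℕ∞) (fun p => H α p i j)) (hpos : IsGriffithsPositive H)
    (γ u : ℂ → Fin 2 → ℂ) (hγ : AnalyticAt ℂ γ 0) (hγ' : deriv γ 0 ≠ 0) (hu : AnalyticAt ℂ u 0)
    (v₀ : Fin 2 → ℂ) (m : ℝ) (hm : 0 < m) (h1 : ‖u 0 ⬝ᵥ v₀‖ = m)
    (h2 : hNormSq H α (γ 0) v₀ ≤ 1)
    (h3 : ∀ᶠ τ in 𝓝 (0 : ℂ), ∀ v, ‖u τ ⬝ᵥ v‖ ^ 2 ≤ m ^ 2 * hNormSq H α (γ τ) v) : False := by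
  have hv : v₀ ≠ 0 := by
    rintro rfl
    simp at h1
    linarith
  obtain ⟨U, s, hU, hp, hs, hsv, hlevi⟩ := hpos α (γ 0) (deriv γ 0) v₀ hγ' hv
  set p := γ 0 with hpdef
  set ξ := deriv γ 0 with hξdef
  have hline : AnalyticAt ℂ (fun τ : ℂ => p + τ • ξ) 0 := by fun_prop
  have hσ : AnalyticAt ℂ (fun τ : ℂ => s (p + τ • ξ)) 0 := by
    have hd : Differentiable ℂ (fun τ : ℂ => p + τ • ξ) := by fun_prop
    refine DifferentiableOn.analyticAt (s := (fun τ : ℂ => p + τ • ξ) ⁻¹' U)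
      (hs.comp hd.differentiableOn fun _ h => h) ?_
    exact (hU.preimage hd.continuous).mem_nhds (by simpa using hp)
  set σ : ℂ → Fin 2 → ℂ := fun τ : ℂ => s (p + τ • ξ) with hσdef
  have σ0 : σ 0 = v₀ := by simp [hσdef, hsv]
  let K : (Fin 2 → ℂ) × (Fin 2 → ℂ) → ℝ := fun x => hNormSq H α x.1 x.2
  have hK : ContDiff ℝ 2 K := by
    have hH' : ∀ i j, ContDiff ℝ 2 (fun p => H α p i j) := fun i j =>
      (hH i j).of_le (by norm_cast)
    refine Complex.reCLM.contDiff.comp (f := fun x : (Fin 2 → ℂ) × (Fin 2 → ℂ) =>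
      ∑ i, ∑ j, H α x.1 i j * x.2 i * (starRingEnd ℂ) (x.2 j)) ?_
    refine ContDiff.sum fun i _ => ContDiff.sum fun j _ => ?_
    refine (((hH' i j).comp contDiff_fst).mul (by fun_prop)).mul ?_
    exact Complex.conjCLE.contDiff.comp (f := fun x : (Fin 2 → ℂ) × (Fin 2 → ℂ) => x.2 j)
      (by fun_prop)
  have hΓ1 : AnalyticAt ℂ (fun τ => (γ τ, σ τ)) 0 := hγ.prod hσ
  have hΓ2 : AnalyticAt ℂ (fun τ : ℂ => (p + τ • ξ, σ τ)) 0 := hline.prod hσ
  have hl : lap (fun τ => K (γ τ, σ τ)) < 0 := by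
    have e1 := lap_comp hK hΓ1
    have e2 := lap_comp hK hΓ2
    have d1 : deriv (fun τ => (γ τ, σ τ)) 0 = (ξ, deriv σ 0) :=
      (hγ.differentiableAt.hasDerivAt.prodMk hσ.differentiableAt.hasDerivAt).deriv
    have d2 : deriv (fun τ : ℂ => (p + τ • ξ, σ τ)) 0 = (ξ, deriv σ 0) := by
      have : HasDerivAt (fun τ : ℂ => p + τ • ξ) ξ 0 := by
        simpa using ((hasDerivAt_id (0 : ℂ)).smul_const ξ).const_add p
      exact (this.prodMk hσ.differentiableAt.hasDerivAt).deriv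
    rw [d1] at e1
    rw [d2] at e2
    simp only [zero_smul, add_zero] at e2
    rw [e1, ← hpdef, ← e2]
    convert hlevi using 1
    simp only [lap, leviAlong, secondDerivAlong, K, hσdef, mul_one, smul_smul]
  let a : ℂ → ℂ := fun τ => u τ ⬝ᵥ σ τ
  have ha : AnalyticAt ℂ a 0 := by
    refine Finset.analyticAt_fun_sum _ fun i _ => ?_
    exact (analyticAt_pi_iff.1 hu i).mul (analyticAt_pi_iff.1 hσ i)
  let ℓ : ℂ →L[ℝ] ℝ := (2 : ℝ) • Complex.reCLM.comp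
    (ContinuousLinearMap.mul ℝ ℂ ((starRingEnd ℂ) (a 0)))
  have hℓ : lap (fun τ => ℓ (a τ)) = 0 := by
    rw [lap_comp ℓ.contDiff ha]
    have : fderiv ℝ ℓ = fun _ => ℓ := funext fun _ => ℓ.fderiv
    rw [this]
    simp
  have a0 : ‖a 0‖ = m := by simp only [a, σ0, h1]
  have hmin : IsLocalMin (fun τ => m ^ 2 * K (γ τ, σ τ) - ℓ (a τ)) 0 := by
    filter_upwards [h3] with τ hτ
    have t1 := hτ (σ τ)
    have t2 : ℓ (a 0) = 2 * m ^ 2 := by
      simp [ℓ, ← a0, Complex.sq_norm, Complex.normSq_apply]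
    have t3 : ℓ (a τ) ≤ ‖a τ‖ ^ 2 + m ^ 2 := by
      simp only [ℓ, ← a0, Complex.sq_norm, Complex.normSq_apply]
      simp
      nlinarith [sq_nonneg ((a τ).re - (a 0).re), sq_nonneg ((a τ).im - (a 0).im)]
    have t4 : K (γ 0, σ 0) ≤ 1 := by simpa only [K, σ0] using h2
    have t5 : m ^ 2 * K (γ 0, σ 0) ≤ m ^ 2 := mul_le_of_le_one_right (by positivity) t4
    change m ^ 2 * K (γ 0, σ 0) - ℓ (a 0) ≤ m ^ 2 * hNormSq H α (γ τ) (σ τ) - ℓ (a τ)
    change ‖a τ‖ ^ 2 ≤ _ at t1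
    linarith
  have key : ∀ w : ℂ, 0 ≤ m ^ 2 * deriv (deriv fun t : ℝ => K (γ (t * w), σ (t * w))) 0 -
      deriv (deriv fun t : ℝ => ℓ (a (t * w))) 0 := by
    intro w
    have c1 := levi_contDiffAt hK hΓ1 w
    have c2 := levi_contDiffAt (ℓ.contDiff (n := 2)) ha w
    rw [← deriv2_comb c1 c2]
    refine deriv2_nonneg_of_isLocalMin ?_ ((continuousAt_const.mul c1.continuousAt).sub
      c2.continuousAt)
    have := (levi_tendsto w).eventually hmin
    filter_upwards [this] with t ht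
    simpa using ht
  have k1 := key 1
  have k2 := key Complex.I
  unfold lap at hl hℓ
  have := mul_neg_of_pos_of_neg (pow_pos hm 2) hl
  linarith

end Crest.Agent.R258
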