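import Mathlib

/-!
# Row 258: maximum principle with a barrier (abstract)

`N ≥ 0` on `ℂ` vanishes where the entire function `F` vanishes, is upper semicontinuous where
`F ≠ 0`, grows at most like `|Y|^8`, and no product `N * ‖μ‖` (`μ` analytic near the point) has a
positive local maximum.  Then a bound on the level set `‖Y^12 - W₀‖ = η` propagates.

Sketch.  For `0 < ε < 1/60` let `Ψ Y = N Y * ‖F Y‖^ε * ‖Y^12 - W₀‖^(-7/10)` on
`D = {η ≤ ‖Y^12 - W₀‖}` and `Ψ' Y = N Y * ‖F Y‖^ε` on the compact `D' = {‖Y^12 - W₀‖ ≤ η}`.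
Both are upper semicontinuous (where `F = 0`: bounded times a factor tending to `0`), `Ψ → 0` at
infinity since `8 + 24 ε < 12 * 7/10`.  If `Ψ` exceeded its bound `b M^ε η^(-7/10)` on the level set
(`M` a bound of `‖F‖` where `‖Y^12‖ ≤ 4`) it would have a positive maximum at an interior point `Y₁`
(`UpperSemicontinuousOn.exists_isMaxOn` on `D ∩ closedBall 0 R`), where `F Y₁ ≠ 0` and
`Ψ = const * N * ‖μ‖` near `Y₁` for the analytic
`μ Y = (F Y / F Y₁)^(ε:ℂ) * ((Y^12 - W₀)/(Y₁^12 - W₀))^(-7/10:ℂ)` (`cpow` near `1`,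
`Complex.norm_cpow_real`/`norm_cpow_of_ne_zero`), contradiction.  Let `ε → 0`; use
`‖Y^12 - W₀‖ ≤ 8`, and `1 ≤ 8/η` on `D'`.
-/

set_option autoImplicit false
noncomputable section
open Filter Topology

namespace Crest.Agent.R258

theorem exists_analytic_rpow {H : ℂ → ℂ} (hH : Differentiable ℂ H) {Y₁ : ℂ} (h : H Y₁ ≠ 0)
    (s : ℝ) : ∃ μ : ℂ → ℂ, AnalyticAt ℂ μ Y₁ ∧ ∀ Y, ‖H Y‖ ^ s = ‖μ Y‖ := by
  have hn : 0 < ‖H Y₁‖ := norm_pos_iff.2 h
  refine ⟨fun Y => ((‖H Y₁‖ ^ s : ℝ) : ℂ) * (H Y / H Y₁) ^ (s : ℂ), ?_, fun Y => ?_⟩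
  · refine analyticAt_const.mul (AnalyticAt.cpow ((hH.analyticAt Y₁).div analyticAt_const h)
      analyticAt_const ?_)
    rw [div_self h]
    exact Complex.one_mem_slitPlane
  · rw [norm_mul, Complex.norm_cpow_real, Complex.norm_real, norm_div,
      Real.div_rpow (norm_nonneg _) hn.le, Real.norm_of_nonneg (Real.rpow_nonneg hn.le _),
      mul_div_cancel₀ _ (Real.rpow_pos_of_pos hn _).ne']

theorem maxp {N : ℂ → ℝ} {F : ℂ → ℂ} {C : ℝ} (_hN0 : ∀ Y, 0 ≤ N Y)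
    (husc : ∀ Y, F Y ≠ 0 → UpperSemicontinuousAt N Y)
    (hg : ∀ Y, N Y ≤ C * max 1 ‖Y‖ ^ 8)
    (hnm : ∀ (Y₀ : ℂ) (μ : ℂ → ℂ), AnalyticAt ℂ μ Y₀ → 0 < N Y₀ * ‖μ Y₀‖ →
      ¬ IsLocalMax (fun Y => N Y * ‖μ Y‖) Y₀)
    {K : Set ℂ} (hK : IsCompact K) {w : ℂ → ℝ} (hw : ContinuousOn w K) (hw0 : ∀ Y, 0 ≤ w Y)
    (hwF : ∀ Y, F Y = 0 → w Y = 0)
    (hloc : ∀ Y ∈ K, F Y ≠ 0 → ∃ μ : ℂ → ℂ, AnalyticAt ℂ μ Y ∧ ∀ Y', w Y' = ‖μ Y'‖)
    {B : ℝ} (hB0 : 0 ≤ B) (hB : ∀ Y ∈ K, K ∉ 𝓝 Y → N Y * w Y ≤ B) :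
    ∀ Y ∈ K, N Y * w Y ≤ B := by
  intro Y hY
  have hu : UpperSemicontinuousOn (fun Y => N Y * w Y) K := by
    intro x hx
    refine (upperSemicontinuousWithinAt_iff (f := fun Y => N Y * w Y)).2 fun y hy => ?_
    by_cases hF : F x = 0
    · have hc : ContinuousWithinAt (fun x' : ℂ => C * max 1 ‖x'‖ ^ 8 * w x') K x :=
        (by fun_prop : Continuous fun x' : ℂ => C * max 1 ‖x'‖ ^ 8).continuousWithinAt.mul (hw x hx)
      have hy' : C * max 1 ‖x‖ ^ 8 * w x < y := by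
        rw [hwF x hF, mul_zero] at hy ⊢
        exact hy
      filter_upwards [hc.eventually_lt_const hy'] with x' hx'
      exact (mul_le_mul_of_nonneg_right (hg x') (hw0 x')).trans_lt hx'
    · have h1 : ∀ᶠ a in 𝓝[>] (N x), a * w x < y :=
        ((continuous_mul_const (w x)).continuousWithinAt).eventually_lt_const hy
      obtain ⟨a, ha, ha'⟩ := (h1.and self_mem_nhdsWithin).exists
      have h2 := (upperSemicontinuousAt_iff.1 (husc x hF) a ha').filter_mono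
        (nhdsWithin_le_nhds (s := K))
      have h3 := ((hw x hx).const_mul a).eventually_lt_const ha
      filter_upwards [h2, h3] with x' k1 k2
      exact (mul_le_mul_of_nonneg_right k1.le (hw0 x')).trans_lt k2
  obtain ⟨Y₁, hY₁, hmax⟩ := hu.exists_isMaxOn ⟨Y, hY⟩ hK
  refine le_trans (hmax hY) ?_
  by_cases hin : K ∈ 𝓝 Y₁
  swap
  · exact hB Y₁ hY₁ hin
  by_contra hlt
  have hpos : 0 < N Y₁ * w Y₁ := hB0.trans_lt (not_le.1 hlt)
  have hF : F Y₁ ≠ 0 := fun h => by simp [hwF Y₁ h] at hpos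
  obtain ⟨μ, hμ, hμw⟩ := hloc Y₁ hY₁ hF
  refine hnm Y₁ μ hμ (by rwa [← hμw]) ?_
  simpa only [hμw] using hmax.isLocalMax hin

theorem le_of_rpow_le {x y a c : ℝ} (ha : 0 < a) (hc : 0 < c)
    (h : ∀ ε : ℝ, 0 < ε → ε < 1 / 60 → x * a ^ ε ≤ y * c ^ ε) : x ≤ y := by
  have t : ∀ u d : ℝ, 0 < d → Tendsto (fun ε : ℝ => u * d ^ ε) (𝓝[>] 0) (𝓝 u) := by
    intro u d hd
    have := ((Real.continuousAt_const_rpow (b := 0) hd.ne').tendsto.const_mul u).mono_left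
      (nhdsWithin_le_nhds (s := Set.Ioi 0))
    simpa using this
  refine le_of_tendsto_of_tendsto (t x a ha) (t y c hc) ?_
  filter_upwards [Ioo_mem_nhdsGT (by norm_num : (0 : ℝ) < 1 / 60)] with ε hε
  exact h ε hε.1 hε.2

theorem barrier (N : ℂ → ℝ) (F : ℂ → ℂ) (C : ℝ) (hF : Differentiable ℂ F)
    (hFg : ∀ Y, ‖F Y‖ ≤ C * max 1 ‖Y‖ ^ 24)
    (hN0 : ∀ Y, 0 ≤ N Y) (hNF : ∀ Y, F Y = 0 → N Y = 0)
    (husc : ∀ Y, F Y ≠ 0 → UpperSemicontinuousAt N Y)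
    (hg : ∀ Y, N Y ≤ C * max 1 ‖Y‖ ^ 8)
    (hnm : ∀ (Y₀ : ℂ) (μ : ℂ → ℂ), AnalyticAt ℂ μ Y₀ → 0 < N Y₀ * ‖μ Y₀‖ →
      ¬ IsLocalMax (fun Y => N Y * ‖μ Y‖) Y₀)
    (W₀ : ℂ) (η b : ℝ) (hη : 0 < η) (hW : ‖W₀‖ + η ≤ 4) (hb0 : 0 ≤ b)
    (hb : ∀ Y, ‖Y ^ 12 - W₀‖ = η → N Y ≤ b) :
    ∀ Y, ‖Y ^ 12‖ ≤ 4 → N Y ≤ b * (8 / η) ^ (7 / 10 : ℝ) := by
  intro Y hY
  have hW0 := norm_nonneg W₀
  by_cases hFY : F Y = 0
  · rw [hNF Y hFY]; positivity
  have hFY' : 0 < ‖F Y‖ := norm_pos_iff.2 hFY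
  have hC : 0 < C := by
    by_contra h
    have := mul_nonpos_of_nonpos_of_nonneg (not_lt.1 h) (by positivity : 0 ≤ max 1 ‖Y‖ ^ 24)
    linarith [hFg Y]
  have h2 : ∀ Z : ℂ, ‖Z ^ 12‖ ≤ 4 → ‖Z‖ ≤ 2 := by
    intro Z hZ
    by_contra h
    have := pow_le_pow_left₀ (by norm_num) (not_le.1 h).le 12
    rw [norm_pow] at hZ
    linarith
  have h4 : ∀ Z : ℂ, ‖Z ^ 12 - W₀‖ ≤ η → ‖Z ^ 12‖ ≤ 4 := by
    intro Z hZ
    have := norm_sub_norm_le (Z ^ 12) W₀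
    linarith
  have hM : ∀ Z : ℂ, ‖Z ^ 12 - W₀‖ ≤ η → ‖F Z‖ ≤ C * 2 ^ 24 := by
    intro Z hZ
    refine (hFg Z).trans ?_
    have : max 1 ‖Z‖ ≤ 2 := max_le (by norm_num) (h2 Z (h4 Z hZ))
    gcongr
  have hG : Differentiable ℂ fun Z : ℂ => Z ^ 12 - W₀ := by fun_prop
  have hGc : Continuous fun Z : ℂ => ‖Z ^ 12 - W₀‖ := hG.continuous.norm
  have hwc : ∀ ε : ℝ, 0 < ε → Continuous fun Z => ‖F Z‖ ^ ε := fun ε hε =>
    hF.continuous.norm.rpow_const fun _ => Or.inr hε.le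
  rcases le_total ‖Y ^ 12 - W₀‖ η with hYη | hYη
  · have hle : N Y ≤ b := by
      refine le_of_rpow_le hFY' (by positivity : 0 < C * 2 ^ 24) fun ε hε _ => ?_
      refine maxp hN0 husc hg hnm (K := {Z | ‖Z ^ 12 - W₀‖ ≤ η}) ?_ (hwc ε hε).continuousOn
        (fun _ => by positivity) (fun Z hZ => by simp [hZ, hε.ne'])
        (fun Z _ hZ => exists_analytic_rpow hF hZ ε) (by positivity) (fun Z hZ hn => ?_) Y hYη
      · refine (isCompact_closedBall (0 : ℂ) 2).of_isClosed_subset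
          (isClosed_le hGc continuous_const) fun Z hZ => ?_
        exact mem_closedBall_zero_iff.2 (h2 Z (h4 Z hZ))
      · have he : ‖Z ^ 12 - W₀‖ = η := by
          refine le_antisymm hZ (not_lt.1 fun hlt => hn ?_)
          filter_upwards [hGc.continuousAt.eventually_lt_const hlt] with Z' hZ' using hZ'.le
        have := hb Z he
        have := hM Z hZ
        gcongr
    refine hle.trans (le_mul_of_one_le_right hb0 (Real.one_le_rpow ?_ (by norm_num)))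
    rw [le_div_iff₀ hη]
    linarith
  · have hGY : 0 < ‖Y ^ 12 - W₀‖ := hη.trans_le hYη
    have hle : N Y * ‖Y ^ 12 - W₀‖ ^ (-(7 / 10) : ℝ) ≤ b * η ^ (-(7 / 10) : ℝ) := by
      refine le_of_rpow_le hFY' (by positivity : 0 < C * 2 ^ 24) fun ε hε hε' => ?_
      have ht : Tendsto (fun R : ℝ => max (b * η ^ (-(7 / 10) : ℝ) * (C * 2 ^ 24) ^ ε)
          (C * C ^ ε * (1 / 2 : ℝ) ^ (-(7 / 10) : ℝ) * R ^ (-(2 / 5 - 24 * ε)))) atTop
          (𝓝 (max (b * η ^ (-(7 / 10) : ℝ) * (C * 2 ^ 24) ^ ε)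
            (C * C ^ ε * (1 / 2 : ℝ) ^ (-(7 / 10) : ℝ) * 0))) :=
        tendsto_const_nhds.max ((tendsto_rpow_neg_atTop (by linarith)).const_mul _)
      rw [mul_zero, max_eq_left (by positivity)] at ht
      refine ge_of_tendsto ht ?_
      filter_upwards [eventually_ge_atTop 2] with R hR
      rw [mul_assoc]
      refine maxp hN0 husc hg hnm (K := {Z | η ≤ ‖Z ^ 12 - W₀‖} ∩ Metric.closedBall 0 R)
        (w := fun Z => ‖Z ^ 12 - W₀‖ ^ (-(7 / 10) : ℝ) * ‖F Z‖ ^ ε)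
        ((isCompact_closedBall 0 R).inter_left (isClosed_le continuous_const hGc))
        ((hGc.continuousOn.rpow_const fun Z hZ => Or.inl (hη.trans_le hZ.1).ne').mul
          (hwc ε hε).continuousOn)
        (fun _ => by positivity) (fun Z hZ => by simp [hZ, hε.ne']) (fun Z hZ hZ' => ?_)
        (le_max_of_le_left (by positivity)) (fun Z hZ hn => ?_) Y
        ⟨hYη, mem_closedBall_zero_iff.2 ((h2 Y hY).trans hR)⟩
      · obtain ⟨μ, h1, h1'⟩ := exists_analytic_rpow hF hZ' ε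
        obtain ⟨ν, h3, h3'⟩ := exists_analytic_rpow hG (Y₁ := Z)
          (norm_pos_iff.1 (hη.trans_le hZ.1)) (-(7 / 10))
        exact ⟨fun Z => ν Z * μ Z, h3.mul h1, fun Z' => by rw [norm_mul, ← h1', ← h3']⟩
      · by_cases he : ‖Z ^ 12 - W₀‖ = η
        · refine le_max_of_le_left ?_
          have := hb Z he
          have := hM Z he.le
          rw [he, ← mul_assoc]
          gcongr
        have hZR : ‖Z‖ = R := by
          refine le_antisymm (mem_closedBall_zero_iff.1 hZ.2) (not_lt.1 fun hlt => hn ?_)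
          filter_upwards [hGc.continuousAt.eventually_const_lt (lt_of_le_of_ne hZ.1 (Ne.symm he)),
            continuous_norm.continuousAt.eventually_lt_const hlt] with Z' k1 k2
          exact ⟨k1.le, mem_closedBall_zero_iff.2 k2.le⟩
        refine le_max_of_le_right ?_
        have hR0 : 0 < R := by linarith
        have k1 := hg Z
        have k2 := hFg Z
        rw [hZR, max_eq_right (by linarith)] at k1 k2
        have k3 : 1 / 2 * R ^ 12 ≤ ‖Z ^ 12 - W₀‖ := by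
          have a1 := norm_sub_norm_le (Z ^ 12) W₀
          have a2 := pow_le_pow_left₀ (by norm_num) hR 12
          rw [norm_pow, hZR] at a1
          linarith
        have k4 : ‖Z ^ 12 - W₀‖ ^ (-(7 / 10) : ℝ) ≤ (1 / 2 * R ^ 12) ^ (-(7 / 10) : ℝ) :=
          Real.rpow_le_rpow_of_nonpos (by positivity) k3 (by norm_num)
        have k5 : N Z * (‖Z ^ 12 - W₀‖ ^ (-(7 / 10) : ℝ) * ‖F Z‖ ^ ε) ≤
            C * R ^ 8 * ((1 / 2 * R ^ 12) ^ (-(7 / 10) : ℝ) * (C * R ^ 24) ^ ε) := by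
          gcongr
        refine k5.trans (le_of_eq ?_)
        have e : R ^ (-(2 / 5 - 24 * ε)) =
            R ^ 8 * ((R ^ 12) ^ (-(7 / 10) : ℝ) * (R ^ 24) ^ ε) := by
          rw [← Real.rpow_natCast R 8, ← Real.rpow_natCast R 12, ← Real.rpow_natCast R 24,
            ← Real.rpow_mul hR0.le, ← Real.rpow_mul hR0.le, ← Real.rpow_add hR0,
            ← Real.rpow_add hR0]
          congr 1
          push_cast
          ring
        rw [e, Real.mul_rpow (by norm_num) (by positivity), Real.mul_rpow hC.le (by positivity)]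
        ring
    have h8 : ‖Y ^ 12 - W₀‖ ≤ 8 := by
      have := norm_sub_le (Y ^ 12) W₀
      linarith
    rw [Real.rpow_neg hGY.le, Real.rpow_neg hη.le, ← div_eq_mul_inv, ← div_eq_mul_inv,
      div_le_iff₀ (Real.rpow_pos_of_pos hGY _)] at hle
    refine hle.trans ?_
    rw [Real.div_rpow (by norm_num) hη.le, div_mul_eq_mul_div, mul_div_assoc]
    gcongr

end Crest.Agent.R258
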