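import Crest.Agent.R258.Growth
import Crest.Agent.R258.Levi

/-! # Row 258: properties of `NN` -/

set_option autoImplicit false
noncomputable section
open Crest.AlgGeometry.QuadricBundle Matrix Filter Topology

namespace Crest.Agent.R258

variable {t : ℂ} {H : MetricData 2}

theorem Phi_nonneg (t : ℂ) (z : Fin 3 → ℂ) (Y : ℂ) (v : Fin 2 → ℂ) : 0 ≤ Phi t z Y v := by
  unfold Phi; positivity

theorem NN_nonneg (t : ℂ) (H : MetricData 2) (z : Fin 3 → ℂ) (Y : ℂ) : 0 ≤ NN t H z Y :=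
  Real.sSup_nonneg (by rintro _ ⟨X, v, -, rfl⟩; exact Phi_nonneg _ _ _ _)

theorem NN_le {z : Fin 3 → ℂ} {Y : ℂ} {b : ℝ} (hb : 0 ≤ b)
    (h : ∀ X v, Adm t H z Y X v → Phi t z Y v ≤ b) : NN t H z Y ≤ b :=
  Real.sSup_le (by rintro _ ⟨X, v, hA, rfl⟩; exact h X v hA) hb

theorem le_NN (ht1 : ‖t‖ ≤ 1) (ht : 1 - t ^ 2 ≠ 0) (hH : IsHermitianMetric (gg t) H)
    {z : Fin 3 → ℂ} {Y X : ℂ} {v : Fin 2 → ℂ} (hA : Adm t H z Y X v) :
    Phi t z Y v ≤ NN t H z Y := by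
  obtain ⟨C, -, hC⟩ := Phi_le ht1 ht hH
  exact le_csSup ⟨_, by rintro _ ⟨X, v, hA, rfl⟩; exact hC z Y X v hA⟩ ⟨X, v, hA, rfl⟩

theorem NN_growth (ht1 : ‖t‖ ≤ 1) (ht : 1 - t ^ 2 ≠ 0) (hH : IsHermitianMetric (gg t) H) :
    ∃ C, 0 ≤ C ∧ ∀ z Y, NN t H z Y ≤ C * ‖z‖ ^ (7 / 4 : ℝ) * max 1 ‖Y‖ ^ 8 := by
  obtain ⟨C, hC0, hC⟩ := Phi_le ht1 ht hH
  exact ⟨C, hC0, fun z Y => NN_le (by positivity) (hC z Y)⟩

theorem NN_eq_zero {z : Fin 3 → ℂ} {Y : ℂ} (h : f0 t z Y * f1 t z Y = 0) : NN t H z Y = 0 :=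
  le_antisymm (NN_le le_rfl fun X v hA => absurd h (mul_ne_zero hA.1 hA.2.1)) (NN_nonneg _ _ _ _)

theorem NN_smul (ht1 : ‖t‖ ≤ 1) (ht : 1 - t ^ 2 ≠ 0) (hH : IsHermitianMetric (gg t) H)
    (c : ℂ) (z : Fin 3 → ℂ) (Y : ℂ) :
    NN t H (c • z) Y ≤ ‖c‖ ^ (7 / 4 : ℝ) * NN t H z Y := by
  refine NN_le (mul_nonneg (by positivity) (NN_nonneg _ _ _ _)) fun X v hA => ?_
  have e0 : f0 t (c • z) Y = c * f0 t z Y := by simp [f0]
  have e1 : f1 t (c • z) Y = c * f1 t z Y := by simp [f1]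
  obtain ⟨h0, h1, h2, h3⟩ := hA
  rw [e0] at h0 h2
  rw [e1] at h1 h2
  have hc : c ≠ 0 := left_ne_zero_of_mul h0
  have hA : Adm t H z Y X v := ⟨right_ne_zero_of_mul h0, right_ne_zero_of_mul h1,
    mul_left_cancel₀ hc (by linear_combination h2), h3⟩
  refine le_trans (le_of_eq ?_) (mul_le_mul_of_nonneg_left (le_NN ht1 ht hH hA) (by positivity))
  have hz : ‖c‖ ^ (7 / 4 : ℝ) = ‖c‖ * ‖c‖ ^ (3 / 4 : ℝ) := by
    rw [← Real.rpow_one_add' (norm_nonneg _) (by norm_num)]; norm_num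
  have : (mv t 0 Y ⬝ᵥ c • z) * v 0 + c * f1 t z Y * v 1 =
      c * ((mv t 0 Y ⬝ᵥ z) * v 0 + f1 t z Y * v 1) := by
    simp; ring
  rw [Phi, Phi, e1, this, norm_mul, norm_mul, Real.mul_rpow (norm_nonneg _) (norm_nonneg _), hz]
  ring

theorem f0_sub (t : ℂ) (z : Fin 3 → ℂ) (Y κ : ℂ) :
    f0 t (z - κ • pv t (hc 0 Y)) Y = f0 t z Y := by simp [f0, l0_pv]

theorem f1_sub (t : ℂ) (z : Fin 3 → ℂ) (Y κ : ℂ) :
    f1 t (z - κ • pv t (hc 0 Y)) Y = f1 t z Y := by simp [f1, l1_pv]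

theorem NN_tri (ht1 : ‖t‖ ≤ 1) (ht : 1 - t ^ 2 ≠ 0) (hH : IsHermitianMetric (gg t) H)
    (z : Fin 3 → ℂ) (Y α α' κ κ' : ℂ) (h1 : α + α' = 1) (h2 : α * κ + α' * κ' = 0) :
    NN t H z Y ≤ ‖α‖ * NN t H (z - κ • pv t (hc 0 Y)) Y +
      ‖α'‖ * NN t H (z - κ' • pv t (hc 0 Y)) Y := by
  refine NN_le (add_nonneg (mul_nonneg (norm_nonneg _) (NN_nonneg _ _ _ _))
    (mul_nonneg (norm_nonneg _) (NN_nonneg _ _ _ _))) fun X v hA => ?_
  have hA' : ∀ k : ℂ, Adm t H (z - k • pv t (hc 0 Y)) Y X v := fun k => by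
    simpa only [Adm, f0_sub, f1_sub] using hA
  have a1 := le_NN ht1 ht hH (hA' κ)
  have a2 := le_NN ht1 ht hH (hA' κ')
  refine le_trans ?_ (add_le_add (mul_le_mul_of_nonneg_left a1 (norm_nonneg _))
    (mul_le_mul_of_nonneg_left a2 (norm_nonneg _)))
  simp only [Phi, f1_sub, dotProduct_sub, dotProduct_smul, mv_pv ht, smul_eq_mul, mul_one]
  rw [← mul_assoc, ← mul_assoc, ← add_mul, ← norm_mul, ← norm_mul]
  gcongr
  refine le_trans (le_of_eq ?_) (norm_add_le _ _)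
  congr 1
  linear_combination (-(mv t 0 Y ⬝ᵥ z) * v 0 - f1 t z Y * v 1) * h1 + v 0 * h2

theorem f0_differentiable (t : ℂ) (z : Fin 3 → ℂ) : Differentiable ℂ (f0 t z) := by
  unfold f0
  simp [l0, hc, dotProduct, Fin.sum_univ_three]
  fun_prop

theorem f1_differentiable (t : ℂ) (z : Fin 3 → ℂ) : Differentiable ℂ (f1 t z) := by
  unfold f1
  simp [l1, hc, dotProduct, Fin.sum_univ_three]
  fun_prop

theorem mv_differentiable (t : ℂ) (z : Fin 3 → ℂ) :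
    Differentiable ℂ fun Y => mv t 0 Y ⬝ᵥ z := by
  simp [mv, dotProduct, Fin.sum_univ_three]
  fun_prop

theorem Phi_continuous (t : ℂ) (z : Fin 3 → ℂ) :
    Continuous fun x : ℂ × ℂ × (Fin 2 → ℂ) => Phi t z x.1 x.2.2 := by
  have h1 := (f1_differentiable t z).continuous
  have h2 := (mv_differentiable t z).continuous
  unfold Phi
  refine Continuous.mul (Continuous.norm ?_) (Continuous.rpow_const ?_ fun _ => Or.inr
    (by norm_num))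
  · exact ((h2.comp continuous_fst).mul (by fun_prop)).add
      ((h1.comp continuous_fst).mul (by fun_prop))
  · exact (h1.comp continuous_fst).norm

theorem hN_continuous (hH : IsHermitianMetric (gg t) H) :
    Continuous fun x : ℂ × ℂ × (Fin 2 → ℂ) => hNormSq H (0, 0) ![x.2.1, x.1] x.2.2 :=
  (hNormSq_continuous hH (0, 0)).comp
    (f := fun x : ℂ × ℂ × (Fin 2 → ℂ) => ((![x.2.1, x.1] : Fin 2 → ℂ), x.2.2)) (by fun_prop)

theorem eq_continuous (t : ℂ) (z : Fin 3 → ℂ) :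
    Continuous fun x : ℂ × ℂ × (Fin 2 → ℂ) => x.2.1 ^ 4 * f1 t z x.1 + f0 t z x.1 :=
  (Continuous.mul (by fun_prop) ((f1_differentiable t z).continuous.comp continuous_fst)).add
    ((f0_differentiable t z).continuous.comp continuous_fst)

/-- admissible pairs stay in a compact set -/
theorem adm_bound (hH : IsHermitianMetric (gg t) H) (z : Fin 3 → ℂ) (Y₀ : ℂ)
    (hY : f1 t z Y₀ ≠ 0) : ∃ K : Set (ℂ × (Fin 2 → ℂ)), IsCompact K ∧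
      ∀ᶠ Y in 𝓝 Y₀, ∀ X v, Adm t H z Y X v → (X, v) ∈ K := by
  set R := ‖f0 t z Y₀ / f1 t z Y₀‖ + 1 with hR
  set R' := max R (‖Y₀‖ + 1)
  obtain ⟨c, hc0, hc⟩ := hNormSq_lower hH (0, 0) (isCompact_closedBall (0 : Fin 2 → ℂ) R')
  refine ⟨Metric.closedBall 0 R ×ˢ Metric.closedBall 0 (√c⁻¹),
    (isCompact_closedBall _ _).prod (isCompact_closedBall _ _), ?_⟩
  have h1 : ∀ᶠ Y in 𝓝 Y₀, ‖f0 t z Y / f1 t z Y‖ < R :=
    (((f0_differentiable t z).continuous.continuousAt.div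
      (f1_differentiable t z).continuous.continuousAt hY).norm).eventually
      (gt_mem_nhds (by simp [hR]))
  have h2 : ∀ᶠ Y in 𝓝 Y₀, ‖Y‖ < ‖Y₀‖ + 1 :=
    continuous_norm.continuousAt.eventually (gt_mem_nhds (by simp))
  filter_upwards [h1, h2] with Y h1 h2 X v hA
  have hX : ‖X‖ ≤ R := by
    have e : f0 t z Y / f1 t z Y = -X ^ 4 := by
      rw [div_eq_iff hA.2.1]; linear_combination hA.2.2.1
    rw [e, norm_neg, norm_pow] at h1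
    by_contra hcon
    push Not at hcon
    have hR1 : 1 ≤ R := le_add_of_nonneg_left (norm_nonneg _)
    have := le_self_pow₀ (hR1.trans hcon.le) (show 4 ≠ 0 by norm_num)
    linarith
  refine ⟨mem_closedBall_zero_iff.2 hX, mem_closedBall_zero_iff.2 ?_⟩
  apply Real.le_sqrt_of_sq_le
  rw [← one_div, le_div_iff₀ hc0]
  have hq : (![X, Y] : Fin 2 → ℂ) ∈ Metric.closedBall (0 : Fin 2 → ℂ) R' := by
    rw [mem_closedBall_zero_iff, pi_norm_le_iff_of_nonneg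
      (le_max_of_le_right (by positivity))]
    intro i
    fin_cases i
    · exact le_max_of_le_left hX
    · exact le_max_of_le_right h2.le
  linarith [hc _ hq v, hA.2.2.2]

theorem NN_usc (ht1 : ‖t‖ ≤ 1) (ht : 1 - t ^ 2 ≠ 0) (hH : IsHermitianMetric (gg t) H)
    (z : Fin 3 → ℂ) (Y : ℂ) (hY : f0 t z Y * f1 t z Y ≠ 0) :
    UpperSemicontinuousAt (NN t H z) Y := by
  intro b hb
  obtain ⟨b', hb1, hb2⟩ := exists_between hb
  obtain ⟨K, hK, hKY⟩ := adm_bound hH z Y (right_ne_zero_of_mul hY)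
  have key : ∀ᶠ Y' in 𝓝 Y, ∀ k ∈ K, Adm t H z Y' k.1 k.2 → Phi t z Y' k.2 < b' := by
    refine hK.eventually_forall_of_forall_eventually
      (P := fun Y' k => Adm t H z Y' k.1 k.2 → Phi t z Y' k.2 < b') fun k _ => ?_
    by_cases hA : Adm t H z Y k.1 k.2
    · have := (le_NN ht1 ht hH hA).trans_lt hb1
      filter_upwards [(Phi_continuous t z).continuousAt (x := (Y, k)) |>.eventually
        (gt_mem_nhds this)] with x hx _ using hx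
    · by_cases he : k.1 ^ 4 * f1 t z Y + f0 t z Y = 0
      · have : 1 < hNormSq H (0, 0) ![k.1, Y] k.2 := by
          by_contra hcon
          exact hA ⟨left_ne_zero_of_mul hY, right_ne_zero_of_mul hY, he, not_lt.1 hcon⟩
        filter_upwards [(hN_continuous hH).continuousAt (x := (Y, k)) |>.eventually
          (lt_mem_nhds this)] with x hx hx' using absurd hx'.2.2.2 (not_le.2 hx)
      · filter_upwards [(eq_continuous t z).continuousAt (x := (Y, k)) |>.eventually_ne he]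
          with x hx hx' using absurd hx'.2.2.1 hx
  filter_upwards [key, hKY] with Y' h1 h2
  exact (NN_le ((NN_nonneg _ _ _ _).trans hb1.le) fun X v hA =>
    (h1 _ (h2 X v hA) hA).le).trans_lt hb2

theorem NN_attained (hH : IsHermitianMetric (gg t) H) {z : Fin 3 → ℂ} {Y : ℂ}
    (h0 : 0 < NN t H z Y) : ∃ X v, Adm t H z Y X v ∧ NN t H z Y ≤ Phi t z Y v := by
  have hne : ∃ X v, Adm t H z Y X v := by
    by_contra hcon
    push Not at hcon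
    exact absurd (NN_le le_rfl fun X v hA => absurd hA (hcon X v)) (not_le.2 h0)
  obtain ⟨X₁, v₁, hA₁⟩ := hne
  obtain ⟨K, hK, hKY⟩ := adm_bound hH z Y hA₁.2.1
  have hcl : IsClosed {k : ℂ × (Fin 2 → ℂ) | Adm t H z Y k.1 k.2} := by
    have : {k : ℂ × (Fin 2 → ℂ) | Adm t H z Y k.1 k.2} =
        {k | k.1 ^ 4 * f1 t z Y + f0 t z Y = 0} ∩ {k | hNormSq H (0, 0) ![k.1, Y] k.2 ≤ 1} := by
      ext k
      exact ⟨fun h => ⟨h.2.2.1, h.2.2.2⟩, fun h => ⟨hA₁.1, hA₁.2.1, h.1, h.2⟩⟩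
    rw [this]
    have hc : Continuous fun k : ℂ × (Fin 2 → ℂ) => hNormSq H (0, 0) ![k.1, Y] k.2 :=
      (hNormSq_continuous hH (0, 0)).comp
        (f := fun k : ℂ × (Fin 2 → ℂ) => ((![k.1, Y] : Fin 2 → ℂ), k.2)) (by fun_prop)
    exact (isClosed_eq (by fun_prop) continuous_const).inter (isClosed_le hc continuous_const)
  have hcp : IsCompact {k : ℂ × (Fin 2 → ℂ) | Adm t H z Y k.1 k.2} :=
    hK.of_isClosed_subset hcl fun k hk => hKY.self_of_nhds k.1 k.2 hk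
  have hPc : Continuous fun k : ℂ × (Fin 2 → ℂ) => Phi t z Y k.2 := by
    unfold Phi; fun_prop
  obtain ⟨k, hk, hmax⟩ := hcp.exists_isMaxOn ⟨(X₁, v₁), hA₁⟩ hPc.continuousOn
  exact ⟨k.1, k.2, hk, NN_le (Phi_nonneg _ _ _ _) fun X v hA => hmax (a := (X, v)) hA⟩

theorem NN_no_max (ht1 : ‖t‖ ≤ 1) (ht : 1 - t ^ 2 ≠ 0) (hH : IsHermitianMetric (gg t) H)
    (hpos : IsGriffithsPositive H) (z : Fin 3 → ℂ) (Y₀ : ℂ) (μ : ℂ → ℂ)
    (hμ : AnalyticAt ℂ μ Y₀) (h0 : 0 < NN t H z Y₀ * ‖μ Y₀‖) :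
    ¬ IsLocalMax (fun Y => NN t H z Y * ‖μ Y‖) Y₀ := by
  intro hmax
  have hN : 0 < NN t H z Y₀ := pos_of_mul_pos_left h0 (norm_nonneg _)
  obtain ⟨X₀, v₀, hA, hle⟩ := NN_attained hH hN
  have heq : Phi t z Y₀ v₀ = NN t H z Y₀ := le_antisymm (le_NN ht1 ht hH hA) hle
  have a0 : AnalyticAt ℂ (fun τ => f0 t z (Y₀ + τ)) 0 :=
    ((f0_differentiable t z).comp (by fun_prop)).analyticAt 0
  have a1 : AnalyticAt ℂ (fun τ => f1 t z (Y₀ + τ)) 0 :=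
    ((f1_differentiable t z).comp (by fun_prop)).analyticAt 0
  have a2 : AnalyticAt ℂ (fun τ => mv t 0 (Y₀ + τ) ⬝ᵥ z) 0 :=
    ((mv_differentiable t z).comp (by fun_prop)).analyticAt 0
  have a3 : AnalyticAt ℂ (fun τ => μ (Y₀ + τ)) 0 :=
    AnalyticAt.comp (g := μ) (by simpa using hμ) (by fun_prop)
  set ρ : ℂ → ℂ := fun τ => f0 t z (Y₀ + τ) * f1 t z Y₀ / (f1 t z (Y₀ + τ) * f0 t z Y₀) with hρ
  have hρ0 : ρ 0 = 1 := by
    simp only [hρ, add_zero]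
    rw [mul_comm]; exact div_self (mul_ne_zero hA.2.1 hA.1)
  have a4 : AnalyticAt ℂ ρ 0 := (a0.mul analyticAt_const).div (a1.mul analyticAt_const)
    (by simpa using ⟨hA.2.1, hA.1⟩)
  set σ : ℂ → ℂ := fun τ => f1 t z (Y₀ + τ) / f1 t z Y₀ with hσ
  have hσ0 : σ 0 = 1 := by simp [hσ, hA.2.1]
  have a5 : AnalyticAt ℂ σ 0 := a1.div_const
  have a6 : AnalyticAt ℂ (fun τ => X₀ * ρ τ ^ ((4 : ℕ) : ℂ)⁻¹) 0 :=
    analyticAt_const.mul (a4.cpow analyticAt_const (by simp [hρ0]))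
  set ω : ℂ → ℂ := fun τ => μ (Y₀ + τ) * σ τ ^ ((3 / 4 : ℝ) : ℂ) *
    ((‖f1 t z Y₀‖ ^ (3 / 4 : ℝ) : ℝ) : ℂ) with hω
  have a7 : AnalyticAt ℂ ω 0 :=
    (a3.mul (a5.cpow analyticAt_const (by simp [hσ0]))).mul analyticAt_const
  have hωn : ∀ τ, ‖ω τ‖ = ‖μ (Y₀ + τ)‖ * ‖f1 t z (Y₀ + τ)‖ ^ (3 / 4 : ℝ) := fun τ => by
    have hp : 0 < ‖f1 t z Y₀‖ ^ (3 / 4 : ℝ) := Real.rpow_pos_of_pos (norm_pos_iff.2 hA.2.1) _
    simp only [hω, hσ, norm_mul, Complex.norm_cpow_real, norm_div, Complex.norm_real,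
      Real.norm_of_nonneg hp.le]
    rw [Real.div_rpow (norm_nonneg _) (norm_nonneg _), mul_assoc, div_mul_cancel₀ _ hp.ne']
  have hu : ∀ τ v, ‖(fun i => ω τ * ![mv t 0 (Y₀ + τ) ⬝ᵥ z, f1 t z (Y₀ + τ)] i) ⬝ᵥ v‖ =
      Phi t z (Y₀ + τ) v * ‖μ (Y₀ + τ)‖ := fun τ v => by
    have : (fun i => ω τ * ![mv t 0 (Y₀ + τ) ⬝ᵥ z, f1 t z (Y₀ + τ)] i) ⬝ᵥ v =
        ω τ * ((mv t 0 (Y₀ + τ) ⬝ᵥ z) * v 0 + f1 t z (Y₀ + τ) * v 1) := by
      rw [dotProduct, Fin.sum_univ_two]; simp only [cons_val_zero, cons_val_one]; ring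
    rw [this, norm_mul, hωn, Phi]; ring
  have aγ : AnalyticAt ℂ (fun τ => (![X₀ * ρ τ ^ ((4 : ℕ) : ℂ)⁻¹, Y₀ + τ] : Fin 2 → ℂ)) 0 := by
    refine AnalyticAt.pi fun i => ?_
    fin_cases i
    · exact a6
    · change AnalyticAt ℂ (fun τ => Y₀ + τ) 0
      fun_prop
  refine no_local_max H (0, 0) (hH.smooth _) hpos
    (fun τ => ![X₀ * ρ τ ^ ((4 : ℕ) : ℂ)⁻¹, Y₀ + τ])
    (fun τ i => ω τ * ![mv t 0 (Y₀ + τ) ⬝ᵥ z, f1 t z (Y₀ + τ)] i) aγ ?_ ?_ v₀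
    (NN t H z Y₀ * ‖μ Y₀‖) h0 ?_ ?_ ?_
  · intro h
    have h1 := hasDerivAt_pi.1 aγ.differentiableAt.hasDerivAt 1
    rw [h] at h1
    have h2 : HasDerivAt (fun τ : ℂ => Y₀ + τ) 1 0 := (hasDerivAt_id _).const_add _
    exact one_ne_zero (h2.unique h1)
  · refine AnalyticAt.pi fun i => a7.mul ?_
    fin_cases i
    · exact a2
    · exact a1
  · rw [hu, add_zero, heq]
  · simpa [hρ0] using hA.2.2.2
  · have c0 : Tendsto (fun τ : ℂ => Y₀ + τ) (𝓝 0) (𝓝 Y₀) := by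
      simpa using (continuous_const_add Y₀).tendsto 0
    have e0 := a0.continuousAt.eventually_ne (y := 0) (by simpa using hA.1)
    have e1 := a1.continuousAt.eventually_ne (y := 0) (by simpa using hA.2.1)
    filter_upwards [c0.eventually hmax, e0, e1] with τ hτ e0 e1 v
    by_cases hv : v = 0
    · simp [hv, hNormSq]
    set q : Fin 2 → ℂ := ![X₀ * ρ τ ^ ((4 : ℕ) : ℂ)⁻¹, Y₀ + τ]
    have hh := hNormSq_pos hH (0, 0) q hv
    set h := hNormSq H (0, 0) q v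
    have hs : 0 < √h := Real.sqrt_pos.2 hh
    have hA' : Adm t H z (Y₀ + τ) (X₀ * ρ τ ^ ((4 : ℕ) : ℂ)⁻¹) ((((√h)⁻¹ : ℝ) : ℂ) • v) := by
      refine ⟨e0, e1, ?_, ?_⟩
      · rw [mul_pow, Complex.cpow_nat_inv_pow _ (by norm_num)]
        have := hA.2.2.1
        have b0 := hA.1
        simp only [hρ]
        field_simp
        linear_combination f0 t z (Y₀ + τ) * this
      · rw [hNormSq_smul, Complex.norm_real, Real.norm_of_nonneg (by positivity), inv_pow,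
          Real.sq_sqrt hh.le]
        exact (inv_mul_cancel₀ hh.ne').le
    have h1 : Phi t z (Y₀ + τ) ((((√h)⁻¹ : ℝ) : ℂ) • v) * ‖μ (Y₀ + τ)‖ ≤
        NN t H z Y₀ * ‖μ Y₀‖ :=
      (mul_le_mul_of_nonneg_right (le_NN ht1 ht hH hA') (norm_nonneg _)).trans hτ
    rw [← hu, dotProduct_smul, norm_smul, Complex.norm_real, Real.norm_of_nonneg (by positivity),
      inv_mul_le_iff₀ hs] at h1
    calc _ ≤ (√h * (NN t H z Y₀ * ‖μ Y₀‖)) ^ 2 := by gcongr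
      _ = _ := by rw [mul_pow, Real.sq_sqrt hh.le]; ring

theorem NN_pos (ht1 : ‖t‖ ≤ 1) (ht : 1 - t ^ 2 ≠ 0) (hH : IsHermitianMetric (gg t) H) :
    0 < NN t H ![1, 0, 0] 1 := by
  have e0 : f0 t ![1, 0, 0] 1 = 1 := by simp [f0, l0, hc]
  have e1 : f1 t ![1, 0, 0] 1 = 1 := by simp [f1, l1, hc]
  set X : ℂ := (-1) ^ ((4 : ℕ) : ℂ)⁻¹
  have hX : X ^ 4 = -1 := Complex.cpow_nat_inv_pow _ (by norm_num)
  have hh := hNormSq_pos hH (0, 0) ![X, 1] (v := ![0, 1]) (by simp)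
  set h := hNormSq H (0, 0) ![X, 1] ![0, 1]
  have hs : 0 < √h := Real.sqrt_pos.2 hh
  have hA : Adm t H ![1, 0, 0] 1 X ((((√h)⁻¹ : ℝ) : ℂ) • ![0, 1]) := by
    refine ⟨by simp [e0], by simp [e1], by simp [e0, e1, hX], ?_⟩
    rw [hNormSq_smul, Complex.norm_real, Real.norm_of_nonneg (by positivity), inv_pow,
      Real.sq_sqrt hh.le]
    exact (inv_mul_cancel₀ hh.ne').le
  refine lt_of_lt_of_le ?_ (le_NN ht1 ht hH hA)
  simp [Phi, e1, hs.ne']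

theorem pv_close (ht1 : ‖t‖ ≤ 1) (Y : ℂ) (hY : ‖Y ^ 12‖ ≤ 4) :
    ‖pv t (hc 0 Y) - ![Y ^ 12, (Y ^ 12) ^ 2, 1]‖ ≤ 16 * ‖t‖ := by
  rw [norm_pow] at hY
  have hy := norm_nonneg Y
  have h4 : ‖Y‖ ^ 4 ≤ 2 := by
    by_contra hc
    push Not at hc
    have : (2 : ℝ) ^ 3 ≤ (‖Y‖ ^ 4) ^ 3 := by gcongr
    rw [← pow_mul] at this
    norm_num at this
    linarith
  have ht0 := norm_nonneg t
  rw [pi_norm_le_iff_of_nonneg (by positivity)]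
  intro j
  fin_cases j
  · have : (pv t (hc 0 Y) - ![Y ^ 12, (Y ^ 12) ^ 2, 1]) 0 = -(t * (t * Y ^ 12)) := by
      simp [pv, cr, l0, l1, hc]; ring
    change ‖(pv t (hc 0 Y) - ![Y ^ 12, (Y ^ 12) ^ 2, 1]) 0‖ ≤ _
    rw [this, norm_neg, norm_mul, norm_mul, norm_pow]
    have : ‖t‖ * ‖Y‖ ^ 12 ≤ 1 * 4 := by gcongr
    nlinarith
  · have : (pv t (hc 0 Y) - ![Y ^ 12, (Y ^ 12) ^ 2, 1]) 1 = t * Y ^ 4 := by
      simp [pv, cr, l0, l1, hc]; ring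
    change ‖(pv t (hc 0 Y) - ![Y ^ 12, (Y ^ 12) ^ 2, 1]) 1‖ ≤ _
    rw [this, norm_mul, norm_pow]
    nlinarith
  · have : (pv t (hc 0 Y) - ![Y ^ 12, (Y ^ 12) ^ 2, 1]) 2 = t * (Y ^ 12 * (Y ^ 4 * Y ^ 4)) := by
      simp [pv, cr, l0, l1, hc]; ring
    change ‖(pv t (hc 0 Y) - ![Y ^ 12, (Y ^ 12) ^ 2, 1]) 2‖ ≤ _
    rw [this, norm_mul, norm_mul, norm_mul, norm_pow, norm_pow]
    have : ‖Y‖ ^ 12 * (‖Y‖ ^ 4 * ‖Y‖ ^ 4) ≤ 4 * (2 * 2) := by gcongr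
    nlinarith

end Crest.Agent.R258
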