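import Crest.Agent.R258.Ample
import Crest.Agent.R258.NProps
import Crest.Agent.R258.MP
import Crest.Agent.R258.Chain

/-! # Row 258: assembly -/

set_option autoImplicit false
noncomputable section
open Crest.AlgGeometry.QuadricBundle Matrix Filter Topology

namespace Crest.Agent.R258

theorem main : ∃ g : Transition 2, IsHoloCocycle g ∧ IsAmple g ∧
    ∀ H : MetricData 2, IsHermitianMetric g H → ¬ IsGriffithsPositive H := by
  obtain ⟨θ, hθ, hch⟩ := chain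
  set τ : ℝ := min (θ / 16) (1 / 2) with hτ
  have hτ0 : 0 < τ := by positivity
  have hτ1 : τ ≤ 1 / 2 := min_le_right _ _
  have hτ2 : τ ≤ θ / 16 := min_le_left _ _
  have hn : ‖(τ : ℂ)‖ = τ := by simp [abs_of_pos hτ0]
  have ht0 : (τ : ℂ) ≠ 0 := by exact_mod_cast hτ0.ne'
  have ht1 : ‖(τ : ℂ)‖ ≤ 1 := by rw [hn]; linarith
  have ht : 1 - (τ : ℂ) ^ 2 ≠ 0 := by
    have : (1 - τ ^ 2 : ℝ) ≠ 0 := by nlinarith
    exact_mod_cast this
  refine ⟨gg τ, gg_cocycle ht, gg_ample ht0 ht, fun H hH hpos => ?_⟩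
  obtain ⟨C, hC0, hC⟩ := NN_growth ht1 ht hH
  have key := hch ℂ (fun Y => Y ^ 12) (fun Y => pv τ (hc 0 Y)) (NN τ H)
    (fun Y hY => (pv_close ht1 Y hY).trans (by rw [hn]; linarith))
    (NN_nonneg _ _) (NN_smul ht1 ht hH) (NN_tri ht1 ht hH) ?_ ?_ ![1, 0, 0] 1 (by norm_num)
  · exact (NN_pos ht1 ht hH).ne' key
  · refine ⟨C * 1 * 2 ^ 8, fun z Y hz hY => (hC z Y).trans ?_⟩
    have hY2 : ‖Y‖ ≤ 2 := by
      by_contra hc
      push Not at hc
      have : (2 : ℝ) ^ 12 ≤ ‖Y‖ ^ 12 := by gcongr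
      simp only [norm_pow] at hY
      norm_num at this
      linarith
    have h1 : ‖z‖ ^ (7 / 4 : ℝ) ≤ 1 := Real.rpow_le_one (norm_nonneg _) hz (by norm_num)
    have h2 : max 1 ‖Y‖ ≤ 2 := max_le (by norm_num) hY2
    gcongr
  · intro z W₀ η b hη hW hb0 hb
    refine barrier (NN τ H z) (fun Y => f0 τ z Y * f1 τ z Y)
      (max (9 * ‖z‖ ^ 2) (C * ‖z‖ ^ (7 / 4 : ℝ)))
      ((f0_differentiable _ _).mul (f1_differentiable _ _)) (fun Y => ?_) (NN_nonneg _ _ _)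
      (fun Y hY => NN_eq_zero hY) (NN_usc ht1 ht hH z) (fun Y => (hC z Y).trans ?_)
      (NN_no_max ht1 ht hH hpos z) W₀ η b hη hW hb0 hb
    · rw [norm_mul]
      calc _ ≤ (3 * ‖z‖ * max 1 ‖Y‖ ^ 12) * (3 * ‖z‖ * max 1 ‖Y‖ ^ 12) := by
            gcongr
            · exact f0_le ht1 z Y
            · exact f1_le ht1 z Y
        _ = (9 * ‖z‖ ^ 2) * max 1 ‖Y‖ ^ 24 := by ring
        _ ≤ _ := by gcongr; exact le_max_left _ _
    · gcongr; exact le_max_right _ _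

end Crest.Agent.R258
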