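import Crest.Agent.R258.Cocycle

/-! # Row 258: the algebra of twisted sections of symmetric powers -/

set_option autoImplicit false
noncomputable section
open Crest.AlgGeometry.QuadricBundle Matrix MvPolynomial

namespace Crest.Agent.R258

abbrev R2 : Type := MvPolynomial (Fin 2) ℂ

abbrev Fam : Type := Chart → (Fin 2 → ℂ) → R2

/-- global sections of `Sym^n E ⊗ O(r,s)` -/
structure Sec (g : Transition 2) (n : ℕ) (r s : ℤ) (Q : Fam) : Prop where
  hom : ∀ α p, (Q α p).IsHomogeneous n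
  hol : ∀ α m, Differentiable ℂ fun p => coeff m (Q α p)
  compat : ∀ α β, ∀ p ∈ overlap α β,
    Q α p = lineTrans r s α β p • frameSubst (g α β p) (Q β (tau α β p))

variable {g : Transition 2}

theorem lineTrans_add (r s r' s' : ℤ) {α β : Chart} {p : Fin 2 → ℂ} (hp : p ∈ overlap α β) :
    lineTrans (r + r') (s + s') α β p = lineTrans r s α β p * lineTrans r' s' α β p := by
  have h1 : (if α.1 = β.1 then (1 : ℂ) else p 0 ^ (r + r')) =
      (if α.1 = β.1 then (1 : ℂ) else p 0 ^ r) * (if α.1 = β.1 then (1 : ℂ) else p 0 ^ r') := by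
    split_ifs with h
    · simp
    · exact zpow_add₀ (hp.1 h) _ _
  have h2 : (if α.2 = β.2 then (1 : ℂ) else p 1 ^ (s + s')) =
      (if α.2 = β.2 then (1 : ℂ) else p 1 ^ s) * (if α.2 = β.2 then (1 : ℂ) else p 1 ^ s') := by
    split_ifs with h
    · simp
    · exact zpow_add₀ (hp.2 h) _ _
  simp only [lineTrans, h1, h2]; ring

theorem lineTrans_zero (α β : Chart) (p : Fin 2 → ℂ) : lineTrans 0 0 α β p = 1 := by
  simp [lineTrans]

theorem fs_add (M : Matrix (Fin 2) (Fin 2) ℂ) (a b : R2) :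
    frameSubst M (a + b) = frameSubst M a + frameSubst M b := map_add (bind₁ _) a b

theorem fs_mul (M : Matrix (Fin 2) (Fin 2) ℂ) (a b : R2) :
    frameSubst M (a * b) = frameSubst M a * frameSubst M b := map_mul (bind₁ _) a b

theorem fs_smul (M : Matrix (Fin 2) (Fin 2) ℂ) (c : ℂ) (a : R2) :
    frameSubst M (c • a) = c • frameSubst M a := map_smul (bind₁ _) c a

theorem fs_C (M : Matrix (Fin 2) (Fin 2) ℂ) (c : ℂ) : frameSubst M (C c) = C c := by
  simp [frameSubst]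

theorem fs_X (M : Matrix (Fin 2) (Fin 2) ℂ) (j : Fin 2) :
    frameSubst M (X j) = ∑ i, C (M i j) * X i := by
  simp only [frameSubst, bind₁_X_right]

theorem Sec.zero (n : ℕ) (r s : ℤ) : Sec g n r s 0 where
  hom α p := isHomogeneous_zero _ _ _
  hol α m := by simp
  compat α β p hp := by simp [frameSubst]

theorem Sec.add {n : ℕ} {r s : ℤ} {a b : Fam} (ha : Sec g n r s a) (hb : Sec g n r s b) :
    Sec g n r s (a + b) where
  hom α p := (ha.hom α p).add (hb.hom α p)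
  hol α m := by
    simp only [Pi.add_apply, coeff_add]
    exact (ha.hol α m).add (hb.hol α m)
  compat α β p hp := by
    simp only [Pi.add_apply, fs_add, smul_add]
    rw [← ha.compat α β p hp, ← hb.compat α β p hp]

theorem Sec.smul {n : ℕ} {r s : ℤ} {a : Fam} (c : ℂ) (ha : Sec g n r s a) :
    Sec g n r s (c • a) where
  hom α p := (homogeneousSubmodule _ _ n).smul_mem c (ha.hom α p)
  hol α m := by
    simp only [Pi.smul_apply, coeff_smul, smul_eq_mul]
    exact (ha.hol α m).const_mul c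
  compat α β p hp := by
    simp only [Pi.smul_apply, fs_smul]
    rw [smul_comm, ← ha.compat α β p hp]

theorem Sec.mul {n n' : ℕ} {r s r' s' : ℤ} {a b : Fam} (ha : Sec g n r s a)
    (hb : Sec g n' r' s' b) : Sec g (n + n') (r + r') (s + s') (a * b) where
  hom α p := (ha.hom α p).mul (hb.hom α p)
  hol α m := by
    classical
    simp only [Pi.mul_apply, coeff_mul]
    exact Differentiable.fun_sum fun x _ => (ha.hol α _).mul (hb.hol α _)
  compat α β p hp := by
    simp only [Pi.mul_apply, fs_mul]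
    rw [lineTrans_add _ _ _ _ hp, ← smul_mul_smul_comm, ← ha.compat α β p hp,
      ← hb.compat α β p hp]

theorem Sec.scalar {r s : ℤ} (φ : Chart → (Fin 2 → ℂ) → ℂ) (h1 : ∀ α, Differentiable ℂ (φ α))
    (h2 : ∀ α β, ∀ p ∈ overlap α β, φ α p = lineTrans r s α β p * φ β (tau α β p)) :
    Sec g 0 r s (fun α p => C (φ α p)) where
  hom α p := isHomogeneous_C _ _
  hol α m := by
    classical
    simp only [coeff_C]
    split_ifs
    · exact h1 α
    · exact differentiable_const _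
  compat α β p hp := by
    rw [fs_C, h2 α β p hp, smul_eq_C_mul, C_mul]

/-- a linear form with holomorphic coefficients -/
def linF (φ : Chart → (Fin 2 → ℂ) → Fin 2 → ℂ) : Fam := fun α p => ∑ i, C (φ α p i) * X i

theorem Sec.lin {r s : ℤ} (φ : Chart → (Fin 2 → ℂ) → Fin 2 → ℂ)
    (h1 : ∀ α i, Differentiable ℂ fun p => φ α p i)
    (h2 : ∀ α β, ∀ p ∈ overlap α β,
      φ α p = lineTrans r s α β p • (g α β p *ᵥ φ β (tau α β p))) :
    Sec g 1 r s (linF φ) where
  hom α p := IsHomogeneous.sum _ _ _ fun i _ => isHomogeneous_C_mul_X _ _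
  hol α m := by
    simp only [linF, coeff_sum, coeff_C_mul]
    exact Differentiable.fun_sum fun i _ => (h1 α i).mul_const _
  compat α β p hp := by
    simp only [linF, Fin.sum_univ_two, fs_add, fs_mul, fs_C, fs_X]
    rw [h2 α β p hp]
    simp only [Pi.smul_apply, mulVec, dotProduct, Fin.sum_univ_two, smul_eq_C_mul, smul_eq_mul,
      C_mul, C_add]
    ring

theorem Sec.raise (k l : ℕ) (α₀ : Chart) :
    Sec g 0 k l (fun α p => C (lineTrans k l α α₀ p)) := by
  refine Sec.scalar _ (fun α => ?_) fun α β p hp => (lineTrans_cocycle _ _ α₀ hp).symm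
  unfold lineTrans
  simp only [zpow_natCast]
  refine Differentiable.mul ?_ ?_ <;> split_ifs <;> fun_prop

theorem Sec.div {n : ℕ} {r s r' s' : ℤ} {G : Fam} (hG : Sec g (n + 1) (r + r') (s + s') G)
    (hX : Sec g 1 r' s' fun _ _ => X 1) (hd : ∀ α p, X 1 ∣ G α p) :
    ∃ σ, Sec g n r s σ ∧ ∀ α p, G α p = X 1 * σ α p := by
  have key : ∀ α p, G α p = X 1 * (G α p).divMonomial (Finsupp.single 1 1) := fun α p => by
    have h := divMonomial_add_modMonomial_single (G α p) 1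
    rw [X_dvd_iff_modMonomial_eq_zero.1 (hd α p), add_zero] at h
    exact h.symm
  refine ⟨fun α p => (G α p).divMonomial (Finsupp.single 1 1), ⟨fun α p => ?_, fun α m => ?_,
    fun α β p hp => ?_⟩, key⟩
  · intro d hd
    rw [coeff_divMonomial] at hd
    have := hG.hom α p hd
    rw [map_add] at this
    simp only [Finsupp.weight_single, Pi.one_apply, smul_eq_mul, mul_one] at this
    omega
  · simp only [coeff_divMonomial]
    exact hG.hol α _
  · have h := hG.compat α β p hp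
    have h' := hX.compat α β p hp
    rw [key α p, key β _, fs_mul, add_comm r r', add_comm s s', lineTrans_add _ _ _ _ hp,
      ← smul_mul_smul_comm, ← h'] at h
    exact mul_left_cancel₀ (X_ne_zero 1) h

/-- values of global sections at a point -/
def Val (g : Transition 2) (n : ℕ) (r s : ℤ) (α : Chart) (p : Fin 2 → ℂ) : Submodule ℂ R2 where
  carrier := {R | ∃ Q, Sec g n r s Q ∧ Q α p = R}
  zero_mem' := ⟨0, Sec.zero _ _ _, rfl⟩
  add_mem' := by
    rintro _ _ ⟨a, ha, rfl⟩ ⟨b, hb, rfl⟩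
    exact ⟨a + b, ha.add hb, rfl⟩
  smul_mem' := by
    rintro c _ ⟨a, ha, rfl⟩
    exact ⟨c • a, ha.smul c, rfl⟩

theorem Val.mul {n n' : ℕ} {r s r' s' : ℤ} {α : Chart} {p : Fin 2 → ℂ} {a b : R2}
    (ha : a ∈ Val g n r s α p) (hb : b ∈ Val g n' r' s' α p) :
    a * b ∈ Val g (n + n') (r + r') (s + s') α p := by
  obtain ⟨a, ha, rfl⟩ := ha
  obtain ⟨b, hb, rfl⟩ := hb
  exact ⟨a * b, ha.mul hb, rfl⟩

theorem Val.one (k l : ℕ) (α : Chart) (p : Fin 2 → ℂ) : (1 : R2) ∈ Val g 0 k l α p :=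
  ⟨_, Sec.raise k l α, by simp [lineTrans_self]⟩

theorem Val.mono {n : ℕ} {r s r' s' : ℤ} {α : Chart} {p : Fin 2 → ℂ} {a : R2}
    (ha : a ∈ Val g n r s α p) (hr : r ≤ r') (hs : s ≤ s') : a ∈ Val g n r' s' α p := by
  have := Val.mul ha (Val.one (r' - r).toNat (s' - s).toNat α p)
  rw [Int.toNat_of_nonneg (by omega), Int.toNat_of_nonneg (by omega)] at this
  simpa using this

/-- the combinatorial core of ampleness -/
theorem val_monomial {α : Chart} {p : Fin 2 → ℂ} (ζ0 ζ1 ζ2 : R2) (c : ℂ)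
    (h0 : ζ0 ∈ Val g 1 1 1 α p) (h1 : ζ1 ∈ Val g 1 1 1 α p) (h2 : ζ2 ∈ Val g 1 1 1 α p)
    (q1 : ζ1 ^ 2 ∈ Val g 2 (-2) (-2) α p) (q2 : ζ2 ^ 2 ∈ Val g 2 (-2) (-2) α p)
    (q0 : ζ0 ^ 2 - c • (ζ1 * ζ2) ∈ Val g 2 (-2) (-2) α p) (d : ℕ) :
    ∀ a b e : ℕ, a + b + e = d → ζ0 ^ a * ζ1 ^ b * ζ2 ^ e ∈ Val g d (6 - d) (6 - d) α p := by
  have hpow : ∀ (ζ : R2), ζ ∈ Val g 1 1 1 α p → ∀ a : ℕ, ζ ^ a ∈ Val g a a a α p := by
    intro ζ h a
    induction a with
    | zero => simpa using Val.one (g := g) 0 0 α p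
    | succ a ih => simpa [pow_succ] using Val.mul ih h
  induction d using Nat.strong_induction_on with
  | _ d ih =>
  have step : ∀ (q R : R2) (d' : ℕ), d' + 2 = d → q ∈ Val g 2 (-2) (-2) α p →
      R ∈ Val g d' (6 - d') (6 - d') α p → R * q ∈ Val g d (6 - d) (6 - d) α p := by
    rintro q R d' rfl hq hR
    exact Val.mono (Val.mul hR hq) (by push_cast; omega) (by push_cast; omega)
  intro a
  induction a using Nat.strong_induction_on with
  | _ a iha =>
  intro b e hd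
  by_cases hd3 : d ≤ 3
  · subst hd
    exact Val.mono (Val.mul (Val.mul (hpow _ h0 a) (hpow _ h1 b)) (hpow _ h2 e))
      (by push_cast; omega) (by push_cast; omega)
  by_cases hb : 2 ≤ b
  · obtain ⟨b, rfl⟩ := Nat.exists_eq_add_of_le' hb
    have := step _ _ (a + b + e) (by omega) q1 (ih _ (by omega) a b e rfl)
    convert this using 1; ring
  by_cases he : 2 ≤ e
  · obtain ⟨e, rfl⟩ := Nat.exists_eq_add_of_le' he
    have := step _ _ (a + b + e) (by omega) q2 (ih _ (by omega) a b e rfl)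
    convert this using 1; ring
  obtain ⟨a, rfl⟩ := Nat.exists_eq_add_of_le' (show 2 ≤ a by omega)
  have e1 := step _ _ (a + b + e) (by omega) q0 (ih _ (by omega) a b e rfl)
  have e2 := iha a (by omega) (b + 1) (e + 1) (by omega)
  have := (Val g d (6 - d) (6 - d) α p).add_mem e1 ((Val g d (6 - d) (6 - d) α p).smul_mem c e2)
  convert this using 1
  simp only [smul_eq_C_mul]; ring

theorem ample_of (h : ∀ (α : Chart) (p : Fin 2 → ℂ), ∃ (ζ0 ζ1 ζ2 : R2) (c : ℂ),
    ζ0 ∈ Val g 1 1 1 α p ∧ ζ1 ∈ Val g 1 1 1 α p ∧ ζ2 ∈ Val g 1 1 1 α p ∧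
    ζ1 ^ 2 ∈ Val g 2 (-2) (-2) α p ∧ ζ2 ^ 2 ∈ Val g 2 (-2) (-2) α p ∧
    ζ0 ^ 2 - c • (ζ1 * ζ2) ∈ Val g 2 (-2) (-2) α p ∧
    ∀ i, (X i : R2) ∈ Submodule.span ℂ {ζ0, ζ1, ζ2}) : IsAmple g := by
  intro k
  refine ⟨k + 6, fun n hn α p R hR => ?_⟩
  obtain ⟨ζ0, ζ1, ζ2, c, h0, h1, h2, q1, q2, q0, hX⟩ := h α p
  have hm := val_monomial ζ0 ζ1 ζ2 c h0 h1 h2 q1 q2 q0
  let M : ℕ → Submodule ℂ R2 := fun d =>
    Submodule.span ℂ {R | ∃ a b e : ℕ, a + b + e = d ∧ R = ζ0 ^ a * ζ1 ^ b * ζ2 ^ e}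
  have hL : ∀ d, (Submodule.span ℂ {ζ0, ζ1, ζ2}) ^ d ≤ M d := by
    intro d
    induction d with
    | zero =>
      rw [pow_zero, Submodule.one_le]
      exact Submodule.subset_span ⟨0, 0, 0, rfl, by simp⟩
    | succ d ih =>
      rw [pow_succ]
      refine (mul_le_mul_left ih _).trans ?_
      rw [Submodule.span_mul_span]
      refine Submodule.span_mono ?_
      rintro _ ⟨_, ⟨a, b, e, hd, rfl⟩, y, hy, rfl⟩
      rcases hy with rfl | rfl | rfl
      · exact ⟨a + 1, b, e, by omega, by ring⟩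
      · exact ⟨a, b + 1, e, by omega, by ring⟩
      · exact ⟨a, b, e + 1, by omega, by ring⟩
  have hR1 : R ∈ (homogeneousSubmodule (Fin 2) ℂ 1) ^ n := by
    rw [homogeneousSubmodule_one_pow]; exact hR
  have hle : homogeneousSubmodule (Fin 2) ℂ 1 ≤ Submodule.span ℂ {ζ0, ζ1, ζ2} := by
    rw [homogeneousSubmodule_one_eq_span_X, Submodule.span_le]
    rintro _ ⟨i, rfl⟩
    exact hX i
  have hR2 : R ∈ M n := hL n (pow_le_pow_left' hle n hR1)
  have hR3 : R ∈ Val g n (6 - n) (6 - n) α p := by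
    refine (Submodule.span_le.2 ?_) hR2
    rintro _ ⟨a, b, e, hd, rfl⟩
    exact hm n a b e hd
  obtain ⟨Q, hQ, hQR⟩ := Val.mono hR3 (show _ ≤ -(k : ℤ) by omega) (show _ ≤ -(k : ℤ) by omega)
  exact ⟨Q, ⟨hQ.hom, hQ.hol, hQ.compat⟩, hQR⟩

end Crest.Agent.R258
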